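import Vale.Agent.P207.N4.Dim
import Vale.Agent.P207.H77.Lin
import Vale.Agent.P207.N4.H646.TauB
import Vale.Agent.P207.N4.H662.Bas

/-!
# P207, line N4, row T1: affine charts of the unstable leaves, part 1

`Dt t x` = derivative of the flow on the leaf (in the charts), `lin x` = the linearisation in the
chart `e x`.
-/

open Set Filter Topology Metric MeasureTheory
open scoped ContDiff Nat

set_option linter.unusedSectionVars false

noncomputable section

namespace Vale.Agent.P207.N4.H77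

open Vale.Agent.P207.N3 Vale.Agent.P207.N3.H646 Vale.Agent.P207.H77
open Vale.Agent.P207.N4 Vale.Agent.P207.N4.H646

variable [Dim]

variable {Γ X B : Type} [Group Γ] [MetricSpace X] [ProperSpace X] [MulAction Γ X]
  [IsIsometricSMul Γ X] [TopologicalSpace B] [CompactSpace B] [T2Space B] [MulAction Γ B]
  [ContinuousConstSMul Γ B]

/-- the derivative of `φ t` on the leaf of `x`, in the charts -/
def Dt (L : Leaf Γ X B) (t : ℝ) (x : X) : E2 →L[ℝ] E2 := fderiv ℝ (L.τ x (L.φ t x)) 0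

/-- the rates: contraction of the leaf in the past at rate `a` in all derivatives, expansion in
the future at rate at most `b` -/
structure LRates (L : Leaf Γ X B) (a b : ℝ) : Prop where
  a0 : 0 < a
  ab : a ≤ b
  con : ∀ k : ℕ, 1 ≤ k → ∃ C, ∀ x, ∀ t ≥ L.t1, ∀ u ∈ ball (0 : E2) 3,
    ‖iteratedFDeriv ℝ k (tau L.e (L.φ t x) x) u‖ ≤ C * Real.exp (-a * t)
  inv : ∃ C, ∀ x, ∀ t ≥ L.t1, ‖Dt L t x‖ ≤ C * Real.exp (b * t)

variable (L : Leaf Γ X B)

theorem zero_mem_dm (t : ℝ) (x : X) : (0 : E2) ∈ L.dm x (L.φ t x) := by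
  have h := zero_mem_dm_back L (-t) x
  rwa [neg_neg] at h

theorem tau_zero (t : ℝ) (x : X) : L.τ x (L.φ t x) 0 = 0 := by
  have h := pm_zero L (-t) x
  unfold pm at h
  rwa [neg_neg] at h

theorem Dt_add (s t : ℝ) (x : X) : Dt L (s + t) x = (Dt L s (L.φ t x)).comp (Dt L t x) := by
  unfold Dt
  have h1 := fderiv_tau_comp L (x := x) (y := L.φ t x) (z := L.φ (s + t) x) (u := 0)
    (L.em_φ t x).symm (by rw [L.em_φ, L.em_φ]) (zero_mem_dm L t x)
    (by rw [tau_zero, L.φ_add]; exact zero_mem_dm L s _)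
  rw [tau_zero] at h1
  rw [h1, L.φ_add]

theorem Dt_zero (x : X) : Dt L 0 x = ContinuousLinearMap.id ℝ E2 := by
  unfold Dt
  rw [L.φ_zero]
  have h0 : (0 : E2) ∈ L.dm x x := by
    have := zero_mem_dm L 0 x
    rwa [L.φ_zero] at this
  have h1 : L.τ x x =ᶠ[𝓝 0] id := by
    filter_upwards [(isOpen_dm L x x).mem_nhds h0] with u hu
    exact tau_of L (ball_sub hu.1) rfl
  rw [h1.fderiv_eq]; exact fderiv_id

theorem Dt_neg_comp (t : ℝ) (x : X) :
    (Dt L (-t) (L.φ t x)).comp (Dt L t x) = ContinuousLinearMap.id ℝ E2 := by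
  rw [← Dt_add, neg_add_cancel, Dt_zero]

theorem Dt_comp_neg (t : ℝ) (x : X) :
    (Dt L t (L.φ (-t) x)).comp (Dt L (-t) x) = ContinuousLinearMap.id ℝ E2 := by
  rw [← Dt_add, add_neg_cancel, Dt_zero]

theorem φ_neg' (t : ℝ) (x : X) : L.φ t (L.φ (-t) x) = x := φ_back L t x

/-- the derivative cocycle as an equivalence -/
def De (t : ℝ) (x : X) : E2 ≃L[ℝ] E2 :=
  ContinuousLinearEquiv.equivOfInverse (Dt L t x) (Dt L (-t) (L.φ t x))
    (fun v => by
      have := congrArg (fun A : E2 →L[ℝ] E2 => A v) (Dt_neg_comp L t x)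
      simpa using this)
    (fun v => by
      have h := Dt_comp_neg L t (L.φ t x)
      rw [L.φ_neg] at h
      have := congrArg (fun A : E2 →L[ℝ] E2 => A v) h
      simpa using this)

theorem De_coe (t : ℝ) (x : X) : (De L t x : E2 →L[ℝ] E2) = Dt L t x := rfl

theorem De_symm (t : ℝ) (x : X) :
    ((De L t x).symm : E2 →L[ℝ] E2) = Dt L (-t) (L.φ t x) := rfl

theorem fderiv_pm (t : ℝ) (x : X) : fderiv ℝ (pm L t x) 0 = Dt L (-t) x := rfl

theorem Dt_cont (t : ℝ) : Continuous (Dt L t) := by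
  have h1 := (jc_tau L).fderiv.continuousOn
  have h2 : Continuous fun x : X =>
      ((⟨(x, L.φ t x), (L.em_φ t x).symm⟩ : Pr L), (0 : E2)) :=
    (Continuous.subtype_mk (continuous_id.prodMk (L.φ_cont' t)) _).prodMk continuous_const
  exact h1.comp_continuous h2 fun x => zero_mem_dm L t x

section Rate

variable {L} {a b : ℝ} (R : LRates L a b)
include R

theorem con' (k : ℕ) (hk : 1 ≤ k) : ∃ C : ℝ, 1 ≤ C ∧ ∀ x, ∀ t ≥ L.t1, ∀ u ∈ ball (0 : E2) 3,
    ‖iteratedFDeriv ℝ k (pm L t x) u‖ ≤ C * Real.exp (-a * t) := by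
  obtain ⟨C, hC⟩ := R.con k hk
  refine ⟨max C 1, le_max_right _ _, fun x t ht u hu => ?_⟩
  have h1 := hC (L.φ (-t) x) t ht u hu
  rw [φ_back] at h1
  refine h1.trans ?_
  gcongr
  exact le_max_left _ _

theorem pm_lip : ∃ C : ℝ, 1 ≤ C ∧ ∀ x, ∀ t ≥ L.t1, ∀ u ∈ ball (0 : E2) 3,
    ∀ v ∈ ball (0 : E2) 3, ‖pm L t x u - pm L t x v‖ ≤ C * Real.exp (-a * t) * ‖u - v‖ := by
  obtain ⟨C, hC, h⟩ := con' R 1 le_rfl
  refine ⟨C, hC, fun x t ht u hu v hv => ?_⟩
  have hd : ∀ w ∈ ball (0 : E2) 3, HasFDerivWithinAt (pm L t x) (fderiv ℝ (pm L t x) w)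
      (ball 0 3) w := fun w hw =>
    (tau_hasFDerivAt L (em_back L t x) (mem_dm_back L ht x hw)).hasFDerivWithinAt
  have hb : ∀ w ∈ ball (0 : E2) 3, ‖fderiv ℝ (pm L t x) w‖ ≤ C * Real.exp (-a * t) := by
    intro w hw
    have := h x t ht w hw
    rwa [norm_iteratedFDeriv_one] at this
  exact (convex_ball (0 : E2) 3).norm_image_sub_le_of_norm_hasFDerivWithin_le hd hb hv hu

theorem pm_small' : ∃ C : ℝ, 1 ≤ C ∧ ∀ x, ∀ t ≥ L.t1, ∀ u ∈ ball (0 : E2) 3,
    ‖pm L t x u‖ ≤ C * Real.exp (-a * t) := by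
  obtain ⟨C, hC, h⟩ := pm_lip R
  refine ⟨C * 3, by nlinarith, fun x t ht u hu => ?_⟩
  have h1 := h x t ht u hu 0 zero_mem3
  rw [pm_zero, sub_zero, sub_zero] at h1
  refine h1.trans ?_
  have h2 : ‖u‖ ≤ 3 := (mem_ball_zero_iff.mp hu).le
  calc C * Real.exp (-a * t) * ‖u‖ ≤ C * Real.exp (-a * t) * 3 := by gcongr
    _ = C * 3 * Real.exp (-a * t) := by ring

theorem Dt_back : ∃ C : ℝ, 1 ≤ C ∧ ∀ x, ∀ t ≥ L.t1, ‖Dt L (-t) x‖ ≤ C * Real.exp (-a * t) := by
  obtain ⟨C, hC, h⟩ := con' R 1 le_rfl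
  refine ⟨C, hC, fun x t ht => ?_⟩
  have := h x t ht 0 zero_mem3
  rwa [norm_iteratedFDeriv_one, fderiv_pm] at this

/-- the times of the discrete orbit -/
theorem t_mul (n : ℕ) : L.t1 ≤ (n + 1 : ℝ) * L.t1 := by
  have := L.t1_pos
  nlinarith [mul_nonneg (Nat.cast_nonneg (α := ℝ) n) this.le]

/-- the constants -/
theorem exists_linData (hab : b < 2 * a) : ∃ (C' : ℝ) (K C : ℕ → ℝ),
    LinData (P := X) 3 (Real.exp (-a * L.t1)) (Real.exp (b * L.t1)) C' K C
      (fun n x => pm L L.t1 (L.φ (-((n + 1 : ℝ) * L.t1)) x))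
      (fun n x => pm L ((n + 1 : ℝ) * L.t1) x)
      (fun n x => De L (-((n + 1 : ℝ) * L.t1)) x) := by
  choose! Cc hC1 hCc using con' R
  obtain ⟨Cs, hCs1, hCs⟩ := pm_small' R
  obtain ⟨Ci, hCi⟩ := R.inv
  have ht := L.t1_pos
  have ha := R.a0
  have hlam : Real.exp (-a * L.t1) ≤ 1 := Real.exp_le_one_iff.mpr (by nlinarith)
  have hp : ∀ n : ℕ, Real.exp (-a * ((n + 1 : ℝ) * L.t1)) =
      Real.exp (-a * L.t1) * Real.exp (-a * L.t1) ^ n := by
    intro n
    rw [← Real.exp_nat_mul, ← Real.exp_add]; congr 1; ring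
  have hle : ∀ n : ℕ, Real.exp (-a * ((n + 1 : ℝ) * L.t1)) ≤ Real.exp (-a * L.t1) ^ n := by
    intro n
    rw [hp]
    exact mul_le_of_le_one_left (by positivity) hlam
  refine ⟨max Ci 0 * Real.exp (b * L.t1), fun k => if k = 0 then Cs else Cc k,
    fun k => if k = 0 then Cs else Cc k, ?_⟩
  refine
  { r0 := by norm_num
    lam0 := (Real.exp_pos _).le
    lam1 := hlam
    mu0 := (Real.exp_pos _).le
    rate := ?_
    jf := fun n => ?_
    jF := fun n => jc_pm L (t_mul R n)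
    maps := fun n x u hu => ball_subset_ball (by norm_num) (pm_mem L (t_mul R n) x hu)
    succ := fun n x u hu => ?_
    F0 := fun n x => pm_zero L _ x
    f0 := fun n x => pm_zero L _ _
    fK := fun k n x u hu => ?_
    FC := fun k n x u hu => ?_
    AF := fun n x => fderiv_pm L _ x
    Ainv := fun n x => ?_
    Acont := fun n => ?_ }
  · rw [← Real.exp_nat_mul, ← Real.exp_add, Real.exp_lt_one_iff]
    push_cast
    nlinarith
  · have h1 : Continuous fun x : X => L.φ (-((n + 1 : ℝ) * L.t1)) x := L.φ_cont' _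
    exact (jc_pm L le_rfl).param h1 fun p hp => ⟨trivial, hp.2⟩
  · have h1 := pm_pm L (t_mul R n) (le_refl L.t1) x hu
    show pm L (((n + 1 : ℕ) + 1 : ℝ) * L.t1) x u = _
    rw [h1]
    congr 1
    push_cast
    ring
  · rcases Nat.eq_zero_or_pos k with rfl | hk
    · rw [norm_iteratedFDeriv_zero, if_pos rfl]
      refine (hCs _ L.t1 le_rfl u hu).trans ?_
      exact mul_le_of_le_one_right (by linarith) hlam
    · rw [if_neg hk.ne']
      refine (hCc k hk _ L.t1 le_rfl u hu).trans ?_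
      exact mul_le_of_le_one_right (by linarith [hC1 k hk]) hlam
  · rcases Nat.eq_zero_or_pos k with rfl | hk
    · rw [norm_iteratedFDeriv_zero, if_pos rfl]
      refine (hCs _ _ (t_mul R n) u hu).trans ?_
      exact mul_le_mul_of_nonneg_left (hle n) (by linarith)
    · rw [if_neg hk.ne']
      refine (hCc k hk _ _ (t_mul R n) u hu).trans ?_
      exact mul_le_mul_of_nonneg_left (hle n) (by linarith [hC1 k hk])
  · have h1 : ((De L (-((n + 1 : ℝ) * L.t1)) x).symm : E2 →L[ℝ] E2) =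
        Dt L ((n + 1 : ℝ) * L.t1) (L.φ (-((n + 1 : ℝ) * L.t1)) x) := by
      rw [De_symm, neg_neg]
    rw [h1]
    refine (hCi _ _ (t_mul R n)).trans ?_
    have h2 : Real.exp (b * ((n + 1 : ℝ) * L.t1)) =
        Real.exp (b * L.t1) * Real.exp (b * L.t1) ^ n := by
      rw [← Real.exp_nat_mul, ← Real.exp_add]; congr 1; ring
    rw [h2, ← mul_assoc]
    gcongr
    exact le_max_left _ _
  · have h1 : (fun x : X => ((De L (-((n + 1 : ℝ) * L.t1)) x).symm : E2 →L[ℝ] E2)) =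
        fun x => Dt L ((n + 1 : ℝ) * L.t1) (L.φ (-((n + 1 : ℝ) * L.t1)) x) := by
      funext x
      rw [De_symm, neg_neg]
    rw [h1]
    exact (Dt_cont L _).comp (L.φ_cont' _)

end Rate

end Vale.Agent.P207.N4.H77
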