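import Vale.Agent.P207.N4.H77.Aff1

/-!
# P207, line N4, row T1: affine charts of the unstable leaves, part 2

The linearisation `lin` and its shift law; the affine chart `aff x : B → E2`.
-/

open Set Filter Topology Metric MeasureTheory
open scoped ContDiff Nat

set_option linter.unusedSectionVars false

noncomputable section

namespace Vale.Agent.P207.N4.H77

open Vale.Agent.P207.N3 Vale.Agent.P207.N3.H646 Vale.Agent.P207.H77
open Vale.Agent.P207.N4 Vale.Agent.P207.N4.H646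

variable [Dim]

variable {Γ X B : Type} [Group Γ] [MetricSpace X] [ProperSpace X] [MulAction Γ X]
  [IsIsometricSMul Γ X] [TopologicalSpace B] [CompactSpace B] [T2Space B] [MulAction Γ B]
  [ContinuousConstSMul Γ B]

/-- the linearisation of the flow on the leaf, in the chart `e x` -/
def lin (L : Leaf Γ X B) (x : X) (u : E2) : E2 :=
  LinData.lim (fun n x => pm L L.t1 (L.φ (-(((n : ℕ) + 1 : ℝ) * L.t1)) x))
      (fun n x => pm L (((n : ℕ) + 1 : ℝ) * L.t1) x)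
      (fun n x => De L (-(((n : ℕ) + 1 : ℝ) * L.t1)) x) x u

variable {L : Leaf Γ X B} {a b : ℝ} (R : LRates L a b) (hab : b < 2 * a)
include R hab

theorem jc_lin : JC ((univ : Set X) ×ˢ ball (0 : E2) 3) (lin L) := by
  obtain ⟨C', K, C, h⟩ := exists_linData R hab
  exact h.jc_lim

theorem lin_zero (x : X) : lin L x 0 = 0 := by
  obtain ⟨C', K, C, h⟩ := exists_linData R hab
  exact h.lim_zero x

theorem fderiv_lin (x : X) : fderiv ℝ (lin L x) 0 = ContinuousLinearMap.id ℝ E2 := by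
  obtain ⟨C', K, C, h⟩ := exists_linData R hab
  exact h.fderiv_lim x

theorem lin_smooth (x : X) : ContDiffOn ℝ ∞ (lin L x) (ball 0 3) := fun u hu =>
  ((jc_lin R hab).smooth (x, u) ⟨trivial, hu⟩).contDiffWithinAt

theorem lin_tendsto (x : X) {u : E2} (hu : u ∈ ball (0 : E2) 3) :
    Tendsto (fun n : ℕ => Dt L ((n + 1 : ℝ) * L.t1) (L.φ (-((n + 1 : ℝ) * L.t1)) x)
      (pm L ((n + 1 : ℝ) * L.t1) x u)) atTop (𝓝 (lin L x u)) := by
  obtain ⟨C', K, C, h⟩ := exists_linData R hab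
  have h1 := h.tendsto_gg x hu
  refine h1.congr fun n => ?_
  show ((De L (-((n + 1 : ℝ) * L.t1)) x).symm : E2 →L[ℝ] E2) _ = _
  rw [De_symm, neg_neg]

theorem lin_bound (k : ℕ) : ∃ C : ℝ, 0 ≤ C ∧ ∀ x, ∀ u ∈ ball (0 : E2) 3,
    ‖iteratedFDeriv ℝ k (lin L x) u‖ ≤ C := by
  obtain ⟨C', K, C, h⟩ := exists_linData R hab
  refine ⟨max 0 (C' * C k + LinData.cst (Real.exp (b * L.t1)) C' K C k /
    (1 - Real.exp (-a * L.t1) ^ 2 * Real.exp (b * L.t1))), le_max_left _ _, fun x u hu => ?_⟩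
  refine le_trans ?_ (le_max_right _ _)
  have h1 := h.iter_lim_sub k 0 x hu
  rw [pow_zero, mul_one] at h1
  have h2 : ‖iteratedFDeriv ℝ k (LinData.gg (fun n x => pm L (((n : ℕ) + 1 : ℝ) * L.t1) x)
      (fun n x => De L (-(((n : ℕ) + 1 : ℝ) * L.t1)) x) 0 x) u‖ ≤ C' * C k := by
    have hs : ContDiffAt ℝ ∞ (pm L (((0 : ℕ) + 1 : ℝ) * L.t1) x) u :=
      (h.jF 0).smooth (x, u) ⟨trivial, hu⟩
    have h3 := ((De L (-(((0 : ℕ) + 1 : ℝ) * L.t1)) x).symm : E2 →L[ℝ] E2).norm_iteratedFDeriv_comp_left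
      hs (n := k) (by exact_mod_cast le_top)
    have h4 := h.Ainv 0 x
    have h5 := h.FC k 0 x u hu
    rw [pow_zero, mul_one] at h4 h5
    exact h3.trans (mul_le_mul h4 h5 (norm_nonneg _) ((norm_nonneg _).trans h4))
  calc ‖iteratedFDeriv ℝ k (lin L x) u‖ ≤ _ + _ :=
        norm_le_norm_add_norm_sub' _ (iteratedFDeriv ℝ k (LinData.gg
          (fun n x => pm L (((n : ℕ) + 1 : ℝ) * L.t1) x)
          (fun n x => De L (-(((n : ℕ) + 1 : ℝ) * L.t1)) x) 0 x) u)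
    _ ≤ _ := add_le_add h2 h1

/-- the linearisation is the identity up to order two, uniformly -/
theorem lin_quad : ∃ C : ℝ, 0 ≤ C ∧ ∀ x, ∀ u ∈ ball (0 : E2) 3,
    ‖fderiv ℝ (lin L x) u - ContinuousLinearMap.id ℝ E2‖ ≤ C * ‖u‖ ∧
      ‖lin L x u - u‖ ≤ C * ‖u‖ * ‖u‖ := by
  obtain ⟨C, hC0, hC⟩ := lin_bound R hab 2
  refine ⟨C, hC0, fun x => ?_⟩
  have h0 := zero_mem3
  have hsm : ∀ y ∈ ball (0 : E2) 3, ContDiffAt ℝ ∞ (lin L x) y := fun y hy =>
    (jc_lin R hab).smooth (x, y) ⟨trivial, hy⟩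
  have hd : ∀ y ∈ ball (0 : E2) 3, fderiv ℝ (fun u => lin L x u - u) y =
      fderiv ℝ (lin L x) y - ContinuousLinearMap.id ℝ E2 := by
    intro y hy
    rw [fderiv_fun_sub ((hsm y hy).differentiableAt (by simp)) differentiableAt_fun_id,
      fderiv_fun_id]
  have hb : ∀ y ∈ ball (0 : E2) 3, ‖iteratedFDeriv ℝ 2 (fun u => lin L x u - u) y‖ ≤ C := by
    intro y hy
    have h1 : iteratedFDeriv ℝ 2 (fun u => lin L x u - u) y =
        iteratedFDeriv ℝ 2 (lin L x) y - iteratedFDeriv ℝ 2 (fun u : E2 => u) y :=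
      iteratedFDeriv_sub_apply (i := 2) ((hsm y hy).of_le (by norm_cast))
        contDiffAt_id
    have h2 : iteratedFDeriv ℝ 2 (fun u : E2 => u) y = 0 := by
      rw [← norm_eq_zero, ← norm_iteratedFDeriv_fderiv]
      have h3 : fderiv ℝ (fun u : E2 => u) = fun _ => ContinuousLinearMap.id ℝ E2 := by
        funext z; exact fderiv_fun_id
      rw [h3, iteratedFDeriv_const_of_ne (by norm_num)]
      simp
    rw [h1, h2, sub_zero]
    exact hC x y hy
  have h1 : ContDiffOn ℝ ∞ (fun u => lin L x u - u) (ball 0 3) :=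
    (lin_smooth R hab x).sub contDiffOn_id
  have key := Vale.Agent.P207.H77.quad_bound (r := 3) (by norm_num) h1
    (by simp [lin_zero R hab]) (by rw [hd 0 h0, fderiv_lin R hab, sub_self]) hb
  intro u hu
  obtain ⟨h2, h3⟩ := key u hu
  rw [hd u hu] at h2
  exact ⟨h2, h3⟩

/-- uniqueness of the linearisation -/
theorem lin_unique {l : X → E2 → E2}
    (hsh : ∀ x, ∀ u ∈ ball (0 : E2) 3,
      l x u = Dt L L.t1 (L.φ (-L.t1) x) (l (L.φ (-L.t1) x) (pm L L.t1 x u)))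
    {C : ℝ} (hq : ∀ x, ∀ u ∈ ball (0 : E2) 3, ‖l x u - u‖ ≤ C * ‖u‖ * ‖u‖) (x : X) {u : E2}
    (hu : u ∈ ball (0 : E2) 3) : l x u = lin L x u := by
  have ht := L.t1_pos
  -- the iterated law
  have h1 : ∀ n : ℕ, l x u = Dt L ((n + 1 : ℝ) * L.t1) (L.φ (-((n + 1 : ℝ) * L.t1)) x)
      (l (L.φ (-((n + 1 : ℝ) * L.t1)) x) (pm L ((n + 1 : ℝ) * L.t1) x u)) := by
    intro n
    induction n with
    | zero => simpa using hsh x u hu
    | succ n ih =>
      rw [ih]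
      set z := L.φ (-((n + 1 : ℝ) * L.t1)) x with hz
      have hw : pm L ((n + 1 : ℝ) * L.t1) x u ∈ ball (0 : E2) 3 :=
        ball_subset_ball (by norm_num) (pm_mem L (t_mul R n) x hu)
      rw [hsh z _ hw]
      have h2 := pm_pm L (t_mul R n) (le_refl L.t1) x hu
      rw [← hz] at h2
      have h3 : (n + 1 : ℝ) * L.t1 + L.t1 = (((n + 1 : ℕ) : ℝ) + 1) * L.t1 := by push_cast; ring
      have h4 : L.φ (-L.t1) z = L.φ (-((((n + 1 : ℕ) : ℝ) + 1) * L.t1)) x := by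
        rw [hz, ← L.φ_add, ← h3]; congr 1; ring
      have h5 : Dt L ((((n + 1 : ℕ) : ℝ) + 1) * L.t1) (L.φ (-L.t1) z) =
          (Dt L ((n + 1 : ℝ) * L.t1) z).comp (Dt L L.t1 (L.φ (-L.t1) z)) := by
        rw [← h3, Dt_add, φ_back]
      rw [h2, h3, h4] at *
      rw [h5]
      rfl
  have h2 := lin_tendsto R hab x hu
  refine tendsto_nhds_unique ?_ h2
  rw [tendsto_iff_norm_sub_tendsto_zero]
  obtain ⟨Ci, hCi⟩ := R.inv
  obtain ⟨Cs, hCs1, hCs⟩ := pm_small' R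
  have h3 : ∀ n : ℕ, ‖Dt L ((n + 1 : ℝ) * L.t1) (L.φ (-((n + 1 : ℝ) * L.t1)) x)
      (pm L ((n + 1 : ℝ) * L.t1) x u) - l x u‖ ≤
      (max Ci 0 * |C| * Cs ^ 2) * Real.exp ((b - 2 * a) * L.t1) ^ (n + 1) := by
    intro n
    rw [h1 n, ← map_sub]
    set w := pm L ((n + 1 : ℝ) * L.t1) x u with hw
    have hwb : w ∈ ball (0 : E2) 3 := ball_subset_ball (by norm_num) (pm_mem L (t_mul R n) x hu)
    have h4 := (Dt L ((n + 1 : ℝ) * L.t1) (L.φ (-((n + 1 : ℝ) * L.t1)) x)).le_opNorm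
      (w - l (L.φ (-((n + 1 : ℝ) * L.t1)) x) w)
    refine h4.trans ?_
    have h5 : ‖Dt L ((n + 1 : ℝ) * L.t1) (L.φ (-((n + 1 : ℝ) * L.t1)) x)‖ ≤
        max Ci 0 * Real.exp (b * ((n + 1 : ℝ) * L.t1)) := by
      refine (hCi _ _ (t_mul R n)).trans ?_
      gcongr
      exact le_max_left _ _
    have h6 : ‖w - l (L.φ (-((n + 1 : ℝ) * L.t1)) x) w‖ ≤
        |C| * (Cs * Real.exp (-a * ((n + 1 : ℝ) * L.t1))) *
          (Cs * Real.exp (-a * ((n + 1 : ℝ) * L.t1))) := by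
      rw [norm_sub_rev]
      refine (hq _ w hwb).trans ?_
      have h7 : ‖w‖ ≤ Cs * Real.exp (-a * ((n + 1 : ℝ) * L.t1)) := hCs x _ (t_mul R n) u hu
      have h8 : C ≤ |C| := le_abs_self C
      have h9 : 0 ≤ |C| := abs_nonneg C
      gcongr
    refine (mul_le_mul h5 h6 (norm_nonneg _) (by positivity)).trans (le_of_eq ?_)
    have h10 : Real.exp ((b - 2 * a) * L.t1) ^ (n + 1) =
        Real.exp (b * ((n + 1 : ℝ) * L.t1)) * Real.exp (-a * ((n + 1 : ℝ) * L.t1)) *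
          Real.exp (-a * ((n + 1 : ℝ) * L.t1)) := by
      rw [← Real.exp_nat_mul, ← Real.exp_add, ← Real.exp_add]
      congr 1
      push_cast
      ring
    rw [h10]
    ring
  refine squeeze_zero (fun n => norm_nonneg _) h3 ?_
  have h4 : Real.exp ((b - 2 * a) * L.t1) < 1 := by
    rw [Real.exp_lt_one_iff]
    nlinarith
  have h5 := (tendsto_pow_atTop_nhds_zero_of_lt_one (Real.exp_pos _).le h4).comp
    (tendsto_add_atTop_nat 1)
  simpa using h5.const_mul (max Ci 0 * |C| * Cs ^ 2)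

end Vale.Agent.P207.N4.H77
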