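import Vale.Agent.P207.N4.H77.Aff2

/-!
# P207, line N4, row T1: affine charts of the unstable leaves, part 3

The shift law of the linearisation for real times, the rate, rotations and the group.
-/

open Set Filter Topology Metric MeasureTheory
open scoped ContDiff Nat

set_option linter.unusedSectionVars false

noncomputable section

namespace Vale.Agent.P207.N4.H77

open Vale.Agent.P207.N3 Vale.Agent.P207.N3.H646 Vale.Agent.P207.H77
open Vale.Agent.P207.N4 Vale.Agent.P207.N4.H646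

variable [Dim]

variable {Γ X B : Type} [Group Γ] [MetricSpace X] [ProperSpace X] [MulAction Γ X]
  [IsIsometricSMul Γ X] [TopologicalSpace B] [CompactSpace B] [T2Space B] [MulAction Γ B]
  [ContinuousConstSMul Γ B]

section Rate

variable {L : Leaf Γ X B} {a b : ℝ} (R : LRates L a b)
include R

theorem fwd : ∃ C : ℝ, 1 ≤ C ∧ ∀ x, ∀ t ≥ L.t1, ‖Dt L t x‖ ≤ C * Real.exp (b * t) := by
  obtain ⟨C, hC⟩ := R.inv
  refine ⟨max C 1, le_max_right _ _, fun x t ht => (hC x t ht).trans ?_⟩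
  gcongr
  exact le_max_left _ _

theorem pm_quad : ∃ C : ℝ, 1 ≤ C ∧ ∀ x, ∀ t ≥ L.t1, ∀ u ∈ ball (0 : E2) 3,
    ‖pm L t x u - Dt L (-t) x u‖ ≤ C * Real.exp (-a * t) * ‖u‖ * ‖u‖ := by
  obtain ⟨C, hC, h⟩ := con' R 2 (by norm_num)
  refine ⟨C, hC, fun x t ht u hu => ?_⟩
  have hsm : ∀ y ∈ ball (0 : E2) 3, ContDiffAt ℝ ∞ (pm L t x) y := fun y hy =>
    tau_smoothAt L (em_back L t x) (mem_dm_back L ht x hy)
  have h1 : ContDiffOn ℝ ∞ (fun u => pm L t x u - Dt L (-t) x u) (ball 0 3) := fun y hy =>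
    ((hsm y hy).contDiffWithinAt).sub (Dt L (-t) x).contDiff.contDiffWithinAt
  have hb : ∀ y ∈ ball (0 : E2) 3, ‖iteratedFDeriv ℝ 2 (fun u => pm L t x u - Dt L (-t) x u) y‖ ≤
      C * Real.exp (-a * t) := by
    intro y hy
    have h1 : iteratedFDeriv ℝ 2 (fun u => pm L t x u - Dt L (-t) x u) y =
        iteratedFDeriv ℝ 2 (pm L t x) y - iteratedFDeriv ℝ 2 (fun u : E2 => Dt L (-t) x u) y :=
      iteratedFDeriv_sub_apply (i := 2) ((hsm y hy).of_le (by norm_cast))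
        ((Dt L (-t) x).contDiff.contDiffAt)
    have h2 : iteratedFDeriv ℝ 2 (fun u : E2 => Dt L (-t) x u) y = 0 := by
      rw [← norm_eq_zero, ← norm_iteratedFDeriv_fderiv]
      have h3 : fderiv ℝ (fun u : E2 => Dt L (-t) x u) = fun _ => Dt L (-t) x := by
        funext z; exact (Dt L (-t) x).fderiv
      rw [h3, iteratedFDeriv_const_of_ne (by norm_num)]
      simp
    rw [h1, h2, sub_zero]
    exact h x t ht y hy
  have h0 : fderiv ℝ (fun u => pm L t x u - Dt L (-t) x u) 0 = 0 := by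
    rw [fderiv_fun_sub ((hsm 0 zero_mem3).differentiableAt (by simp))
      (Dt L (-t) x).differentiableAt, fderiv_pm, ContinuousLinearMap.fderiv, sub_self]
  exact (quad_bound (by norm_num) h1 (by simp [pm_zero]) h0 hb u hu).2

end Rate

variable {L : Leaf Γ X B} {a b : ℝ} (R : LRates L a b) (hab : b < 2 * a)
include R hab

/-- the shift law for one step -/
theorem lin_step (x : X) {u : E2} (hu : u ∈ ball (0 : E2) 3) :
    lin L x u = Dt L L.t1 (L.φ (-L.t1) x) (lin L (L.φ (-L.t1) x) (pm L L.t1 x u)) := by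
  have hw : pm L L.t1 x u ∈ ball (0 : E2) 3 :=
    ball_subset_ball (by norm_num) (pm_mem L le_rfl x hu)
  have h1 := (lin_tendsto R hab x hu).comp (tendsto_add_atTop_nat 1)
  have h2 := ((Dt L L.t1 (L.φ (-L.t1) x)).continuous.tendsto _).comp
    (lin_tendsto R hab (L.φ (-L.t1) x) hw)
  refine tendsto_nhds_unique h1 (h2.congr fun n => ?_)
  show Dt L L.t1 (L.φ (-L.t1) x) (Dt L ((n + 1 : ℝ) * L.t1)
    (L.φ (-((n + 1 : ℝ) * L.t1)) (L.φ (-L.t1) x))
    (pm L ((n + 1 : ℝ) * L.t1) (L.φ (-L.t1) x) (pm L L.t1 x u))) =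
    Dt L ((((n + 1 : ℕ) : ℝ) + 1) * L.t1) (L.φ (-((((n + 1 : ℕ) : ℝ) + 1) * L.t1)) x)
      (pm L ((((n + 1 : ℕ) : ℝ) + 1) * L.t1) x u)
  have e1 : (((n + 1 : ℕ) : ℝ) + 1) * L.t1 = L.t1 + (n + 1 : ℝ) * L.t1 := by push_cast; ring
  have e2 : L.φ (-((n + 1 : ℝ) * L.t1)) (L.φ (-L.t1) x) =
      L.φ (-(L.t1 + (n + 1 : ℝ) * L.t1)) x := by
    rw [← L.φ_add]; congr 1; ring
  have e3 := pm_pm L (le_refl L.t1) (t_mul R n) x hu
  have e4 : L.φ ((n + 1 : ℝ) * L.t1) (L.φ (-(L.t1 + (n + 1 : ℝ) * L.t1)) x) =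
      L.φ (-L.t1) x := by
    rw [← L.φ_add]; congr 1; ring
  rw [e1, e3, e2, Dt_add, e4]
  rfl

/-- **the shift law** -/
theorem lin_shift {s : ℝ} (hs : L.t1 ≤ s) (x : X) {u : E2} (hu : u ∈ ball (0 : E2) 3) :
    lin L x u = Dt L s (L.φ (-s) x) (lin L (L.φ (-s) x) (pm L s x u)) := by
  obtain ⟨Cq, hCq0, hq⟩ := lin_quad R hab
  obtain ⟨Ci, hCi1, hCi⟩ := fwd R
  obtain ⟨Cl, hCl1, hCl⟩ := pm_lip R
  obtain ⟨Cp, hCp1, hCp⟩ := pm_quad R
  symm
  refine lin_unique R hab (l := fun x u => Dt L s (L.φ (-s) x) (lin L (L.φ (-s) x) (pm L s x u)))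
    ?_ (C := Ci * Real.exp (b * s) * (Cq * (Cl * Real.exp (-a * s)) * (Cl * Real.exp (-a * s)) +
      Cp * Real.exp (-a * s))) ?_ x hu
  · intro x u hu
    have hv : pm L s x u ∈ ball (0 : E2) 3 := ball_subset_ball (by norm_num) (pm_mem L hs x hu)
    have e1 := lin_step R hab (L.φ (-s) x) hv
    have e2 := pm_pm L hs (le_refl L.t1) x hu
    have e3 := pm_pm L (le_refl L.t1) hs x hu
    have e4 : L.φ (-L.t1) (L.φ (-s) x) = L.φ (-(s + L.t1)) x := by
      rw [← L.φ_add]; congr 1; ring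
    have e5 : L.φ (-s) (L.φ (-L.t1) x) = L.φ (-(s + L.t1)) x := by
      rw [← L.φ_add]; congr 1; ring
    have e6 : L.φ L.t1 (L.φ (-(s + L.t1)) x) = L.φ (-s) x := by
      rw [← L.φ_add]; congr 1; ring
    have e7 : L.φ s (L.φ (-(s + L.t1)) x) = L.φ (-L.t1) x := by
      rw [← L.φ_add]; congr 1; ring
    show Dt L s (L.φ (-s) x) (lin L (L.φ (-s) x) (pm L s x u)) =
      Dt L L.t1 (L.φ (-L.t1) x) (Dt L s (L.φ (-s) (L.φ (-L.t1) x))
        (lin L (L.φ (-s) (L.φ (-L.t1) x)) (pm L s (L.φ (-L.t1) x) (pm L L.t1 x u))))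
    rw [e1, e2, e3, e4, e5, add_comm L.t1 s]
    have h1 := congrArg (fun A : E2 →L[ℝ] E2 => A (lin L (L.φ (-(s + L.t1)) x)
      (pm L (s + L.t1) x u))) (Dt_add L s L.t1 (L.φ (-(s + L.t1)) x))
    have h2 := congrArg (fun A : E2 →L[ℝ] E2 => A (lin L (L.φ (-(s + L.t1)) x)
      (pm L (s + L.t1) x u))) (Dt_add L L.t1 s (L.φ (-(s + L.t1)) x))
    rw [e6] at h1
    rw [e7, add_comm L.t1 s] at h2
    exact h1.symm.trans h2
  · intro x u hu
    have hv : pm L s x u ∈ ball (0 : E2) 3 := ball_subset_ball (by norm_num) (pm_mem L hs x hu)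
    set z := L.φ (-s) x with hz
    set v := pm L s x u with hvdef
    have h1 : u = Dt L s z (Dt L (-s) x u) := by
      have := congrArg (fun A : E2 →L[ℝ] E2 => A u) (Dt_comp_neg L s x)
      simpa using this.symm
    have h2 : Dt L s z (lin L z v) - u = Dt L s z ((lin L z v - v) + (v - Dt L (-s) x u)) := by
      conv_lhs => rw [h1]
      rw [← map_sub]
      congr 1
      abel
    have h3 : ‖v‖ ≤ Cl * Real.exp (-a * s) * ‖u‖ := by
      have := hCl x s hs u hu 0 zero_mem3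
      rwa [pm_zero, sub_zero, sub_zero] at this
    have h4 : ‖lin L z v - v‖ ≤ Cq * (Cl * Real.exp (-a * s) * ‖u‖) *
        (Cl * Real.exp (-a * s) * ‖u‖) := by
      refine ((hq z v hv).2).trans ?_
      gcongr
    have h5 := hCp x s hs u hu
    show ‖Dt L s z (lin L z v) - u‖ ≤ _
    rw [h2]
    refine ((Dt L s z).le_opNorm _).trans ?_
    refine (mul_le_mul (hCi z s hs) ((norm_add_le _ _).trans (add_le_add h4 h5)) (norm_nonneg _)
      (by positivity)).trans (le_of_eq ?_)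
    ring

/-- **the rate** -/
theorem lin_rate : ∃ C : ℝ, 1 ≤ C ∧ ∀ x, ∀ t ≥ L.t1, ∀ u ∈ ball (0 : E2) 3,
    ‖lin L x u - Dt L t (L.φ (-t) x) (pm L t x u)‖ ≤ C * Real.exp ((b - 2 * a) * t) := by
  obtain ⟨Cq, hCq0, hq⟩ := lin_quad R hab
  obtain ⟨Ci, hCi1, hCi⟩ := fwd R
  obtain ⟨Cs, hCs1, hCs⟩ := pm_small' R
  refine ⟨max 1 (Ci * (Cq * Cs * Cs)), le_max_left _ _, fun x t ht u hu => ?_⟩
  have hv : pm L t x u ∈ ball (0 : E2) 3 := ball_subset_ball (by norm_num) (pm_mem L ht x hu)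
  rw [lin_shift R hab ht x hu, ← map_sub]
  refine ((Dt L t (L.φ (-t) x)).le_opNorm _).trans ?_
  have h4 : ‖lin L (L.φ (-t) x) (pm L t x u) - pm L t x u‖ ≤ Cq * (Cs * Real.exp (-a * t)) *
      (Cs * Real.exp (-a * t)) := by
    refine ((hq _ _ hv).2).trans ?_
    have := hCs x t ht u hu
    gcongr
  refine (mul_le_mul (hCi _ t ht) h4 (norm_nonneg _) (by positivity)).trans ?_
  have h5 : Real.exp ((b - 2 * a) * t) = Real.exp (b * t) * Real.exp (-a * t) *
      Real.exp (-a * t) := by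
    rw [← Real.exp_add, ← Real.exp_add]; congr 1; ring
  have h6 : Ci * Real.exp (b * t) * (Cq * (Cs * Real.exp (-a * t)) * (Cs * Real.exp (-a * t))) =
      Ci * (Cq * Cs * Cs) * Real.exp ((b - 2 * a) * t) := by
    rw [h5]; ring
  rw [h6]
  gcongr
  exact le_max_right _ _

omit R hab in
theorem tau_rot (g : O2) {x y : X} {u : E2} (hu : g u ∈ L.dm x y) :
    u ∈ L.dm (L.rot g x) (L.rot g y) ∧
      L.τ (L.rot g x) (L.rot g y) u = g.symm (L.τ x y (g u)) := by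
  have hu3 : u ∈ ball (0 : E2) 3 := by
    have := hu.1
    rwa [mem_ball_zero_iff, g.norm_map, ← mem_ball_zero_iff] at this
  have hv := tau_mem L hu
  have hv3 : g.symm (L.τ x y (g u)) ∈ ball (0 : E2) 3 := by
    rw [mem_ball_zero_iff, g.symm.norm_map, ← mem_ball_zero_iff]
    exact hv
  have h1 : L.e (L.rot g x) u = L.e (L.rot g y) (g.symm (L.τ x y (g u))) := by
    rw [L.e_rot g x u (ball_sub hu3), L.e_rot g y _ (ball_sub hv3),
      LinearIsometryEquiv.apply_symm_apply, e_tau L hu]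
  exact ⟨mem_dm_of L hu3 hv3 h1, tau_of L (ball_sub hv3) h1⟩

omit R hab in
theorem Dt_rot (g : O2) (t : ℝ) (x : X) (v : E2) :
    Dt L t (L.rot g x) v = g.symm (Dt L t x (g v)) := by
  have h0 : g (0 : E2) ∈ L.dm x (L.φ t x) := by
    rw [map_zero]; exact zero_mem_dm L t x
  have h1 : L.τ (L.rot g x) (L.φ t (L.rot g x)) =ᶠ[𝓝 0]
      fun u => g.symm (L.τ x (L.φ t x) (g u)) := by
    have h2 : ∀ᶠ u in 𝓝 (0 : E2), g u ∈ L.dm x (L.φ t x) :=
      g.continuous.continuousAt.eventually ((isOpen_dm L x _).mem_nhds h0)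
    filter_upwards [h2] with u hu
    rw [← L.rot_φ]
    exact (tau_rot g hu).2
  have h3 : HasFDerivAt (L.τ x (L.φ t x)) (Dt L t x) (g 0) := by
    rw [map_zero]
    exact tau_hasFDerivAt L (L.em_φ t x).symm (zero_mem_dm L t x)
  have h4 : HasFDerivAt (fun u => g.symm (L.τ x (L.φ t x) (g u)))
      ((g.symm.toContinuousLinearEquiv : E2 →L[ℝ] E2).comp ((Dt L t x).comp
        (g.toContinuousLinearEquiv : E2 →L[ℝ] E2))) 0 :=
    (g.symm.toContinuousLinearEquiv : E2 →L[ℝ] E2).hasFDerivAt.comp 0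
      (h3.comp 0 (g.toContinuousLinearEquiv : E2 →L[ℝ] E2).hasFDerivAt)
  have h5 := (h4.congr_of_eventuallyEq h1).fderiv
  rw [Dt, h5]
  rfl

theorem lin_rot (g : O2) (x : X) {u : E2} (hu : u ∈ ball (0 : E2) 3) :
    lin L (L.rot g x) u = g.symm (lin L x (g u)) := by
  have hu' : g u ∈ ball (0 : E2) 3 := by
    rw [mem_ball_zero_iff, g.norm_map, ← mem_ball_zero_iff]; exact hu
  have h1 := lin_tendsto R hab (L.rot g x) hu
  have h2 := (g.symm.continuous.tendsto _).comp (lin_tendsto R hab x hu')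
  refine tendsto_nhds_unique h1 (h2.congr fun n => ?_)
  show g.symm (Dt L ((n + 1 : ℝ) * L.t1) (L.φ (-((n + 1 : ℝ) * L.t1)) x)
    (pm L ((n + 1 : ℝ) * L.t1) x (g u))) = _
  have h3 : pm L ((n + 1 : ℝ) * L.t1) (L.rot g x) u =
      g.symm (pm L ((n + 1 : ℝ) * L.t1) x (g u)) := by
    unfold pm
    rw [← L.rot_φ]
    exact (tau_rot g (mem_dm_back L (t_mul R n) x hu')).2
  rw [h3, ← L.rot_φ, Dt_rot, LinearIsometryEquiv.apply_symm_apply]

omit R hab in
theorem Dt_smul (g : Γ) (t : ℝ) (x : X) : Dt L t (g • x) = Dt L t x := by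
  unfold Dt
  rw [L.φ_smul]
  exact (tau_smul_eventually L (zero_mem_dm L t x)).fderiv_eq

theorem lin_smul (g : Γ) (x : X) {u : E2} (hu : u ∈ ball (0 : E2) 3) :
    lin L (g • x) u = lin L x u := by
  have h1 := lin_tendsto R hab (g • x) hu
  have h2 := lin_tendsto R hab x hu
  refine tendsto_nhds_unique h1 (h2.congr fun n => ?_)
  have h3 : pm L ((n + 1 : ℝ) * L.t1) (g • x) u = pm L ((n + 1 : ℝ) * L.t1) x u := by
    unfold pm
    rw [L.φ_smul]
    exact tau_smul L (mem_dm_back L (t_mul R n) x hu)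
  rw [h3, L.φ_smul, Dt_smul]

/-- the linearisation is close to the identity on a small ball, uniformly -/
theorem lin_approx : ∃ δ : ℝ, 0 < δ ∧ δ ≤ 1 ∧ ∀ x,
    (∀ u ∈ closedBall (0 : E2) δ, ∀ v ∈ closedBall (0 : E2) δ,
      ‖lin L x u - lin L x v - (u - v)‖ ≤ 1 / 2 * ‖u - v‖) ∧
    (∀ v ∈ closedBall (0 : E2) (δ / 2), ∃ u ∈ closedBall (0 : E2) δ, lin L x u = v) ∧
    ∀ u ∈ closedBall (0 : E2) δ, ‖fderiv ℝ (lin L x) u - ContinuousLinearMap.id ℝ E2‖ ≤ 1 / 2 := by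
  obtain ⟨Cq, hCq0, hq⟩ := lin_quad R hab
  set δ : ℝ := 1 / (2 * (Cq + 1)) with hδ
  have hδ0 : 0 < δ := by positivity
  have hδ1 : δ ≤ 1 := by
    rw [hδ, div_le_one (by positivity)]; linarith
  have hCδ : Cq * δ ≤ 1 / 2 := by
    rw [hδ, mul_one_div, div_le_iff₀ (by positivity)]; linarith
  have hsub : closedBall (0 : E2) δ ⊆ ball 0 3 := closedBall_subset_ball (by linarith)
  refine ⟨δ, hδ0, hδ1, fun x => ?_⟩
  have h3 : ∀ u ∈ closedBall (0 : E2) δ,
      ‖fderiv ℝ (lin L x) u - ContinuousLinearMap.id ℝ E2‖ ≤ 1 / 2 := by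
    intro u hu
    refine ((hq x u (hsub hu)).1).trans ?_
    have : ‖u‖ ≤ δ := mem_closedBall_zero_iff.1 hu
    calc Cq * ‖u‖ ≤ Cq * δ := by gcongr
      _ ≤ 1 / 2 := hCδ
  have h1 : ∀ u ∈ closedBall (0 : E2) δ, ∀ v ∈ closedBall (0 : E2) δ,
      ‖lin L x u - lin L x v - (u - v)‖ ≤ 1 / 2 * ‖u - v‖ := by
    intro u hu v hv
    have hd : ∀ w ∈ closedBall (0 : E2) δ, HasFDerivWithinAt (fun w => lin L x w - w)
        (fderiv ℝ (lin L x) w - ContinuousLinearMap.id ℝ E2) (closedBall 0 δ) w := fun w hw =>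
      ((((jc_lin R hab).smooth (x, w) ⟨trivial, hsub hw⟩).differentiableAt
        (by simp)).hasFDerivAt.sub (hasFDerivAt_id w)).hasFDerivWithinAt
    have := (convex_closedBall (0 : E2) δ).norm_image_sub_le_of_norm_hasFDerivWithin_le hd h3 hv hu
    calc ‖lin L x u - lin L x v - (u - v)‖ = ‖(lin L x u - u) - (lin L x v - v)‖ := by
          congr 1; abel
      _ ≤ _ := this
  refine ⟨h1, fun v hv => ?_, h3⟩
  have hA : ApproximatesLinearOn (lin L x) (ContinuousLinearMap.id ℝ E2) (closedBall 0 δ)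
      (1 / 2 : NNReal) := by
    intro u hu w hw
    have := h1 u hu w hw
    simpa using this
  let ri : (ContinuousLinearMap.id ℝ E2).NonlinearRightInverse :=
    ⟨fun y => y, 1, fun y => by simp, fun y => by simp⟩
  have hS := hA.surjOn_closedBall_of_nonlinearRightInverse ri hδ0.le (b := 0) (subset_refl _)
  rw [lin_zero R hab] at hS
  have hr : (((ri.nnnorm : ℝ)⁻¹ - ((1 / 2 : NNReal) : ℝ)) * δ) = δ / 2 := by
    have : ri.nnnorm = 1 := rfl
    rw [this]; norm_num; ring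
  rw [hr] at hS
  exact hS hv

end Vale.Agent.P207.N4.H77
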