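import Vale.Agent.P207.N4.H77.Aff3

/-!
# P207, line N4, row T1: affine charts of the unstable leaves, part 4

The affine chart `aff x` of the whole leaf `B ∖ {em x}`: laws, bijectivity, continuity.
-/

open Set Filter Topology Metric MeasureTheory
open scoped ContDiff Nat

set_option linter.unusedSectionVars false

noncomputable section

namespace Vale.Agent.P207.N4.H77

open Vale.Agent.P207.N3 Vale.Agent.P207.N3.H646 Vale.Agent.P207.H77
open Vale.Agent.P207.N4 Vale.Agent.P207.N4.H646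

variable [Dim]

variable {Γ X B : Type} [Group Γ] [MetricSpace X] [ProperSpace X] [MulAction Γ X]
  [IsIsometricSMul Γ X] [TopologicalSpace B] [CompactSpace B] [T2Space B] [MulAction Γ B]
  [ContinuousConstSMul Γ B]

attribute [local irreducible] lin Dt

open Classical in
/-- the affine chart of the leaf of `x` -/
def aff (L : Leaf Γ X B) (x : X) (η : B) : E2 :=
  if h : ∃ T : ℝ, η ∈ L.e (L.φ (-T) x) '' ball 0 3 then
    Dt L h.choose (L.φ (-h.choose) x)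
      (lin L (L.φ (-h.choose) x) (L.inv (L.φ (-h.choose) x) η))
  else 0

section Disc

variable (L : Leaf Γ X B)

theorem disc_mono {x : X} {η : B} {S T : ℝ} (h : S + L.t1 ≤ T)
    (hη : η ∈ L.e (L.φ (-S) x) '' ball 0 3) : η ∈ L.e (L.φ (-T) x) '' ball 0 1 := by
  have h1 := L.engulf (L.φ (-T) x) (T - S) (by linarith)
  have h2 : L.φ (T - S) (L.φ (-T) x) = L.φ (-S) x := by
    rw [← L.φ_add]; congr 1; ring
  rw [h2] at h1
  exact h1 (image_mono ball_subset_closedBall hη)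

theorem disc3 {x : X} {η : B} (h : η ∈ L.e x '' ball 0 1) : η ∈ L.e x '' ball 0 3 :=
  image_mono (ball_subset_ball (by norm_num)) h

theorem exists_disc {x : X} {η : B} (h : η ≠ L.em x) :
    ∃ T₀ : ℝ, ∀ T ≥ T₀, η ∈ L.e (L.φ (-T) x) '' ball 0 3 := by
  obtain ⟨c, hc⟩ := H662.exhaust L h
  exact ⟨c, fun T hT => disc3 L (hc T hT)⟩

theorem ne_em {x : X} {η : B} {T : ℝ} (h : η ∈ L.e (L.φ (-T) x) '' ball 0 3) : η ≠ L.em x := by
  obtain ⟨u, hu, rfl⟩ := h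
  have := L.e_ne (L.φ (-T) x) u (ball_sub hu)
  rwa [L.em_φ] at this

theorem inv_pm {x : X} {η : B} {S t : ℝ} (hη : η ∈ L.e (L.φ (-S) x) '' ball 0 3) :
    pm L t (L.φ (-S) x) (L.inv (L.φ (-S) x) η) = L.inv (L.φ (-(S + t)) x) η := by
  have h2 : L.φ (-t) (L.φ (-S) x) = L.φ (-(S + t)) x := by
    rw [← L.φ_add]; congr 1; ring
  unfold pm
  rw [h2, L.tau_eq, L.e_inv (image_mono ball_subset_closedBall hη)]

end Disc

variable {L : Leaf Γ X B} {a b : ℝ} (R : LRates L a b)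

include R in
/-- the coordinates of a point in the past discs -/
theorem inv_small : ∃ C : ℝ, 1 ≤ C ∧ ∀ (x : X) (η : B) (S : ℝ),
    η ∈ L.e (L.φ (-S) x) '' ball 0 3 → ∀ T ≥ S + L.t1,
    ‖L.inv (L.φ (-T) x) η‖ ≤ C * Real.exp (-a * (T - S)) := by
  obtain ⟨C, hC, h⟩ := pm_small' R
  refine ⟨C, hC, fun x η S hη T hT => ?_⟩
  have h1 := h (L.φ (-S) x) (T - S) (by linarith) (L.inv (L.φ (-S) x) η)
    (L.inv_mem_ball le_rfl hη)
  rw [inv_pm L hη] at h1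
  have : S + (T - S) = T := by ring
  rwa [this] at h1

variable (hab : b < 2 * a)
include R hab

theorem aff_aux {x : X} {η : B} {S T : ℝ} (h : S + L.t1 ≤ T)
    (hη : η ∈ L.e (L.φ (-S) x) '' ball 0 3) :
    Dt L S (L.φ (-S) x) (lin L (L.φ (-S) x) (L.inv (L.φ (-S) x) η)) =
      Dt L T (L.φ (-T) x) (lin L (L.φ (-T) x) (L.inv (L.φ (-T) x) η)) := by
  have hu : L.inv (L.φ (-S) x) η ∈ ball (0 : E2) 3 := L.inv_mem_ball le_rfl hη
  have h1 := lin_shift R hab (s := T - S) (by linarith) (L.φ (-S) x) hu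
  have h2 : L.φ (-(T - S)) (L.φ (-S) x) = L.φ (-T) x := by
    rw [← L.φ_add]; congr 1; ring
  have h3 : S + (T - S) = T := by ring
  have h4 : L.φ (T - S) (L.φ (-T) x) = L.φ (-S) x := by
    rw [← L.φ_add]; congr 1; ring
  rw [inv_pm L hη, h2, h3] at h1
  rw [h1]
  have h5 := congrArg (fun A : E2 →L[ℝ] E2 => A (lin L (L.φ (-T) x) (L.inv (L.φ (-T) x) η)))
    (Dt_add L S (T - S) (L.φ (-T) x))
  rw [h3, h4] at h5
  exact h5.symm

theorem aff_eq {x : X} {η : B} {T : ℝ} (hη : η ∈ L.e (L.φ (-T) x) '' ball 0 3) :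
    aff L x η = Dt L T (L.φ (-T) x) (lin L (L.φ (-T) x) (L.inv (L.φ (-T) x) η)) := by
  have h : ∃ T : ℝ, η ∈ L.e (L.φ (-T) x) '' ball 0 3 := ⟨T, hη⟩
  unfold aff
  rw [dif_pos h]
  set S := h.choose
  have hS : η ∈ L.e (L.φ (-S) x) '' ball 0 3 := h.choose_spec
  have h1 : S + L.t1 ≤ max S T + L.t1 := by
    have := le_max_left S T
    linarith
  have h2 : T + L.t1 ≤ max S T + L.t1 := by
    have := le_max_right S T
    linarith
  rw [aff_aux R hab h1 hS, aff_aux R hab h2 hη]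

theorem aff_e (x : X) {u : E2} (hu : u ∈ ball (0 : E2) 3) : aff L x (L.e x u) = lin L x u := by
  have h0 : L.φ (-0) x = x := by rw [neg_zero, L.φ_zero]
  have h1 : L.e x u ∈ L.e (L.φ (-0) x) '' ball 0 3 := by
    rw [h0]; exact mem_image_of_mem _ hu
  rw [aff_eq R hab h1, h0, Dt_zero, L.inv_e (ball_sub hu)]
  rfl

theorem aff_ep (x : X) : aff L x (L.ep x) = 0 := by
  rw [← L.e_zero, aff_e R hab x zero_mem3, lin_zero R hab]

theorem aff_φ (t : ℝ) {x : X} {η : B} (h : η ≠ L.em x) :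
    aff L (L.φ t x) η = Dt L t x (aff L x η) := by
  obtain ⟨T, hT⟩ := exists_disc L h
  have hT := hT T le_rfl
  have h1 : L.φ (-(t + T)) (L.φ t x) = L.φ (-T) x := by
    rw [← L.φ_add]; congr 1; ring
  have h2 : η ∈ L.e (L.φ (-(t + T)) (L.φ t x)) '' ball 0 3 := by rwa [h1]
  rw [aff_eq R hab h2, aff_eq R hab hT, h1, Dt_add, φ_back]
  rfl

theorem aff_rot (g : O2) {x : X} {η : B} (h : η ≠ L.em x) :
    aff L (L.rot g x) η = g.symm (aff L x η) := by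
  obtain ⟨T, hT⟩ := exists_disc L h
  have hT := hT T le_rfl
  have hu : L.inv (L.φ (-T) x) η ∈ ball (0 : E2) 3 := L.inv_mem_ball le_rfl hT
  have he : L.e (L.φ (-T) x) (L.inv (L.φ (-T) x) η) = η :=
    L.e_inv (image_mono ball_subset_closedBall hT)
  have hv : g.symm (L.inv (L.φ (-T) x) η) ∈ ball (0 : E2) 3 := by
    rw [mem_ball_zero_iff, g.symm.norm_map, ← mem_ball_zero_iff]
    exact hu
  have h1 : L.e (L.rot g (L.φ (-T) x)) (g.symm (L.inv (L.φ (-T) x) η)) = η := by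
    rw [L.e_rot g _ _ (ball_sub hv), LinearIsometryEquiv.apply_symm_apply, he]
  have h2 : η ∈ L.e (L.φ (-T) (L.rot g x)) '' ball 0 3 := by
    rw [← L.rot_φ]
    exact ⟨_, hv, h1⟩
  have h3 : L.inv (L.φ (-T) (L.rot g x)) η = g.symm (L.inv (L.φ (-T) x) η) := by
    rw [← L.rot_φ]
    conv_lhs => rw [← h1]
    exact L.inv_e (ball_sub hv)
  rw [aff_eq R hab h2, h3, ← L.rot_φ, lin_rot R hab g _ hv, Dt_rot,
    LinearIsometryEquiv.apply_symm_apply, LinearIsometryEquiv.apply_symm_apply,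
    aff_eq R hab hT]

theorem aff_smul (g : Γ) {x : X} {η : B} (h : η ≠ L.em x) :
    aff L (g • x) (g • η) = aff L x η := by
  obtain ⟨T, hT⟩ := exists_disc L h
  have hT := hT T le_rfl
  have hu : L.inv (L.φ (-T) x) η ∈ ball (0 : E2) 3 := L.inv_mem_ball le_rfl hT
  have he : L.e (L.φ (-T) x) (L.inv (L.φ (-T) x) η) = η :=
    L.e_inv (image_mono ball_subset_closedBall hT)
  have h1 : L.e (g • L.φ (-T) x) (L.inv (L.φ (-T) x) η) = g • η := by
    rw [L.e_smul g _ _ (ball_sub hu), he]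
  have h2 : g • η ∈ L.e (L.φ (-T) (g • x)) '' ball 0 3 := by
    rw [L.φ_smul]
    exact ⟨_, hu, h1⟩
  rw [aff_eq R hab h2, aff_eq R hab hT, L.φ_smul,
    L.inv_smul g (image_mono ball_subset_closedBall hT), Dt_smul, lin_smul R hab g _ hu]

theorem aff_inj {x : X} {η ζ : B} (hη : η ≠ L.em x) (hζ : ζ ≠ L.em x)
    (h : aff L x η = aff L x ζ) : η = ζ := by
  obtain ⟨δ, hδ0, hδ1, hδ⟩ := lin_approx R hab
  obtain ⟨C, hC, hs⟩ := inv_small R
  obtain ⟨S, hS⟩ := exists_disc L hη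
  obtain ⟨S', hS'⟩ := exists_disc L hζ
  have ha := R.a0
  set S₀ := max S S' with hS₀
  have hη0 := hS S₀ (le_max_left _ _)
  have hζ0 := hS' S₀ (le_max_right _ _)
  have hlim : Tendsto (fun T : ℝ => C * Real.exp (-a * (T - S₀))) atTop (𝓝 0) := by
    have h1 : Tendsto (fun t : ℝ => Real.exp (-(a * (t - S₀)))) atTop (𝓝 0) :=
      Real.tendsto_exp_neg_atTop_nhds_zero.comp
        (Tendsto.const_mul_atTop ha (tendsto_atTop_add_const_right _ _ tendsto_id))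
    have h2 := h1.const_mul C
    rw [mul_zero] at h2
    refine h2.congr fun t => ?_
    rw [neg_mul]
  obtain ⟨T, hT1, hT2⟩ := (((tendsto_order.1 hlim).2 δ hδ0).and
    (eventually_ge_atTop (S₀ + L.t1))).exists
  have h1 : ‖L.inv (L.φ (-T) x) η‖ ≤ δ := (hs x η S₀ hη0 T hT2).trans hT1.le
  have h2 : ‖L.inv (L.φ (-T) x) ζ‖ ≤ δ := (hs x ζ S₀ hζ0 T hT2).trans hT1.le
  have hηT := disc3 L (disc_mono L hT2 hη0)
  have hζT := disc3 L (disc_mono L hT2 hζ0)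
  rw [aff_eq R hab hηT, aff_eq R hab hζT] at h
  have h3 : lin L (L.φ (-T) x) (L.inv (L.φ (-T) x) η) =
      lin L (L.φ (-T) x) (L.inv (L.φ (-T) x) ζ) := (De L T (L.φ (-T) x)).injective h
  have h4 := (hδ (L.φ (-T) x)).1 _ (mem_closedBall_zero_iff.2 h1) _
    (mem_closedBall_zero_iff.2 h2)
  rw [h3, sub_self, zero_sub, norm_neg] at h4
  have h5 : ‖L.inv (L.φ (-T) x) η - L.inv (L.φ (-T) x) ζ‖ = 0 := by
    have := norm_nonneg (L.inv (L.φ (-T) x) η - L.inv (L.φ (-T) x) ζ)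
    linarith
  rw [norm_eq_zero, sub_eq_zero] at h5
  rw [← L.e_inv (image_mono ball_subset_closedBall hηT), h5,
    L.e_inv (image_mono ball_subset_closedBall hζT)]

omit hab in
theorem Dt_back_small (x : X) (v : E2) {δ : ℝ} (hδ : 0 < δ) :
    ∃ T : ℝ, L.t1 ≤ T ∧ ‖Dt L (-T) x v‖ < δ := by
  obtain ⟨C, hC, h⟩ := Dt_back R
  have ha := R.a0
  have hlim : Tendsto (fun T : ℝ => C * Real.exp (-a * T) * ‖v‖) atTop (𝓝 0) := by
    have h1 : Tendsto (fun t : ℝ => Real.exp (-(a * t))) atTop (𝓝 0) :=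
      Real.tendsto_exp_neg_atTop_nhds_zero.comp (Tendsto.const_mul_atTop ha tendsto_id)
    have h2 := (h1.const_mul C).mul_const ‖v‖
    rw [mul_zero, zero_mul] at h2
    refine h2.congr fun t => ?_
    rw [neg_mul]
  obtain ⟨T, hT1, hT2⟩ := (((tendsto_order.1 hlim).2 δ hδ).and
    (eventually_ge_atTop L.t1)).exists
  refine ⟨T, hT2, lt_of_le_of_lt ?_ hT1⟩
  refine ((Dt L (-T) x).le_opNorm v).trans ?_
  gcongr
  exact h x T hT2

theorem aff_zoom {x : X} {v u : E2} {T : ℝ} (hu : u ∈ ball (0 : E2) 3)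
    (h : lin L (L.φ (-T) x) u = Dt L (-T) x v) : aff L x (L.e (L.φ (-T) x) u) = v := by
  rw [aff_eq R hab (mem_image_of_mem _ hu), L.inv_e (ball_sub hu), h]
  have := congrArg (fun A : E2 →L[ℝ] E2 => A v) (Dt_comp_neg L T x)
  simpa using this

theorem aff_surj (x : X) (v : E2) : ∃ η, η ≠ L.em x ∧ aff L x η = v := by
  obtain ⟨δ, hδ0, hδ1, hδ⟩ := lin_approx R hab
  obtain ⟨T, hT1, hT2⟩ := Dt_back_small R x v (half_pos hδ0)
  obtain ⟨u, hu, hlu⟩ := (hδ (L.φ (-T) x)).2.1 _ (mem_closedBall_zero_iff.2 hT2.le)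
  have hu3 : u ∈ ball (0 : E2) 3 := closedBall_subset_ball (by linarith) hu
  exact ⟨_, ne_em L (mem_image_of_mem _ hu3), aff_zoom R hab hu3 hlu⟩

/-- the affine charts are jointly continuous -/
theorem aff_cont {x₀ : X} {η₀ : B} (h : η₀ ≠ L.em x₀) :
    ContinuousAt (fun p : X × B => aff L p.1 p.2) (x₀, η₀) := by
  obtain ⟨T, hT⟩ := exists_disc L h
  have hT := hT T le_rfl
  obtain ⟨u₀, hu₀, he⟩ := hT
  have hz : Tendsto (fun p : X × B => L.φ (-T) p.1) (𝓝 (x₀, η₀)) (𝓝 (L.φ (-T) x₀)) :=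
    ((L.φ_cont' (-T)).comp continuous_fst).tendsto _
  have hb : Tendsto (fun p : X × B => p.2) (𝓝 (x₀, η₀)) (𝓝 (L.e (L.φ (-T) x₀) u₀)) := by
    rw [he]; exact continuous_snd.tendsto _
  obtain ⟨h1, h2⟩ := L.inv_tendsto hz hb hu₀
  have h3 : Tendsto (fun p : X × B => lin L (L.φ (-T) p.1) (L.inv (L.φ (-T) p.1) p.2))
      (𝓝 (x₀, η₀)) (𝓝 (lin L (L.φ (-T) x₀) u₀)) := by
    have h4 : ContinuousAt (fun p : X × E2 => lin L p.1 p.2) (L.φ (-T) x₀, u₀) :=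
      (jc_lin R hab).continuousOn.continuousAt
        ((isOpen_univ.prod isOpen_ball).mem_nhds ⟨trivial, hu₀⟩)
    have h4' : Tendsto (fun p : X × E2 => lin L p.1 p.2) (𝓝 (L.φ (-T) x₀, u₀))
      (𝓝 (lin L (L.φ (-T) x₀) u₀)) := h4
    have h5 := h4'.comp (hz.prodMk_nhds h2)
    exact h5
  have h5 : Tendsto (fun p : X × B => Dt L T (L.φ (-T) p.1)) (𝓝 (x₀, η₀))
      (𝓝 (Dt L T (L.φ (-T) x₀))) := ((Dt_cont L T).tendsto _).comp hz
  have h6 : Tendsto (fun p : X × B => Dt L T (L.φ (-T) p.1)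
      (lin L (L.φ (-T) p.1) (L.inv (L.φ (-T) p.1) p.2))) (𝓝 (x₀, η₀))
      (𝓝 (Dt L T (L.φ (-T) x₀) (lin L (L.φ (-T) x₀) u₀))) :=
    ((isBoundedBilinearMap_apply (𝕜 := ℝ) (E := E2) (F := E2)).continuous.tendsto
      (Dt L T (L.φ (-T) x₀), lin L (L.φ (-T) x₀) u₀)).comp (h5.prodMk_nhds h3)
  have h7 : aff L x₀ η₀ = Dt L T (L.φ (-T) x₀) (lin L (L.φ (-T) x₀) u₀) := by
    rw [aff_eq R hab (T := T) ⟨u₀, hu₀, he⟩, ← he, L.inv_e (ball_sub hu₀)]
  show Tendsto _ _ (𝓝 (aff L x₀ η₀))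
  rw [h7]
  refine h6.congr' ?_
  filter_upwards [h1] with p hp
  exact (aff_eq R hab hp).symm

/-- the inverse of the affine charts is jointly continuous -/
theorem pt_cont {pt : X → E2 → B} (hne : ∀ x q, pt x q ≠ L.em x)
    (hpt : ∀ x q, aff L x (pt x q) = q) : Continuous fun p : X × E2 => pt p.1 p.2 := by
  obtain ⟨δ, hδ0, hδ1, hδ⟩ := lin_approx R hab
  rw [continuous_iff_continuousAt]
  rintro ⟨x₀, q₀⟩
  obtain ⟨T, hT1, hT2⟩ := Dt_back_small R x₀ q₀ (half_pos hδ0)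
  have hDc : Continuous fun p : X × E2 => Dt L (-T) p.1 p.2 :=
    ((Dt_cont L (-T)).comp continuous_fst).clm_apply continuous_snd
  have hV : ∀ᶠ p : X × E2 in 𝓝 (x₀, q₀), ‖Dt L (-T) p.1 p.2‖ < δ / 2 :=
    (hDc.norm.tendsto (x₀, q₀)).eventually (gt_mem_nhds hT2)
  have hsub : closedBall (0 : E2) δ ⊆ ball 0 3 := closedBall_subset_ball (by linarith)
  have hex : ∀ p : X × E2, ∃ u, ‖Dt L (-T) p.1 p.2‖ < δ / 2 →
      u ∈ closedBall (0 : E2) δ ∧ lin L (L.φ (-T) p.1) u = Dt L (-T) p.1 p.2 := by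
    intro p
    by_cases hp : ‖Dt L (-T) p.1 p.2‖ < δ / 2
    · obtain ⟨u, hu, hlu⟩ := (hδ (L.φ (-T) p.1)).2.1 _ (mem_closedBall_zero_iff.2 hp.le)
      exact ⟨u, fun _ => ⟨hu, hlu⟩⟩
    · exact ⟨0, fun h => absurd h hp⟩
  choose w hw using hex
  have hpe : ∀ p : X × E2, ‖Dt L (-T) p.1 p.2‖ < δ / 2 →
      pt p.1 p.2 = L.e (L.φ (-T) p.1) (w p) := by
    intro p hp
    obtain ⟨h1, h2⟩ := hw p hp
    refine aff_inj R hab (hne _ _) (ne_em L (mem_image_of_mem _ (hsub h1))) ?_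
    rw [hpt, aff_zoom R hab (hsub h1) h2]
  obtain ⟨hw1, hw2⟩ := hw (x₀, q₀) hT2
  -- continuity of the coordinate
  have hz : Tendsto (fun p : X × E2 => L.φ (-T) p.1) (𝓝 (x₀, q₀)) (𝓝 (L.φ (-T) x₀)) :=
    ((L.φ_cont' (-T)).comp continuous_fst).tendsto _
  have hwc : Tendsto w (𝓝 (x₀, q₀)) (𝓝 (w (x₀, q₀))) := by
    rw [tendsto_iff_norm_sub_tendsto_zero]
    have h4 : ContinuousAt (fun p : X × E2 => lin L p.1 p.2) (L.φ (-T) x₀, w (x₀, q₀)) :=
      (jc_lin R hab).continuousOn.continuousAt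
        ((isOpen_univ.prod isOpen_ball).mem_nhds ⟨trivial, hsub hw1⟩)
    have h5 : Tendsto (fun p : X × E2 => lin L (L.φ (-T) p.1) (w (x₀, q₀))) (𝓝 (x₀, q₀))
        (𝓝 (Dt L (-T) x₀ q₀)) := by
      have h4' : Tendsto (fun p : X × E2 => lin L p.1 p.2) (𝓝 (L.φ (-T) x₀, w (x₀, q₀)))
        (𝓝 (lin L (L.φ (-T) x₀) (w (x₀, q₀)))) := h4
      have h5 := h4'.comp (hz.prodMk_nhds (tendsto_const_nhds (x := w (x₀, q₀))))
      rw [hw2] at h5
      exact h5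
    have h6 : Tendsto (fun p : X × E2 => 2 * ‖Dt L (-T) p.1 p.2 -
        lin L (L.φ (-T) p.1) (w (x₀, q₀))‖) (𝓝 (x₀, q₀)) (𝓝 0) := by
      have h7 : Tendsto (fun p : X × E2 => Dt L (-T) p.1 p.2) (𝓝 (x₀, q₀))
        (𝓝 (Dt L (-T) x₀ q₀)) := hDc.tendsto _
      have := ((h7.sub h5).norm).const_mul 2
      simpa using this
    refine squeeze_zero' (Eventually.of_forall fun _ => norm_nonneg _) ?_ h6
    filter_upwards [hV] with p hp
    obtain ⟨h8, h9⟩ := hw p hp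
    have h10 := (hδ (L.φ (-T) p.1)).1 _ h8 _ hw1
    rw [h9] at h10
    have h11 := norm_sub_norm_le (w p - w (x₀, q₀))
      (Dt L (-T) p.1 p.2 - lin L (L.φ (-T) p.1) (w (x₀, q₀)))
    rw [← norm_neg, neg_sub] at h10
    linarith
  have h8 : ContinuousAt (fun p : X × E2 => L.e p.1 p.2) (L.φ (-T) x₀, w (x₀, q₀)) :=
    L.e_cont.continuousAt (mem_of_superset
      ((isOpen_univ.prod isOpen_ball).mem_nhds ⟨trivial, hsub hw1⟩)
      (prod_mono_right ball_subset_closedBall))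
  show Tendsto _ _ (𝓝 (pt x₀ q₀))
  rw [hpe (x₀, q₀) hT2]
  refine (h8.tendsto.comp (hz.prodMk_nhds hwc)).congr' ?_
  filter_upwards [hV] with p hp
  exact (hpe p hp).symm

/-- points with small affine coordinate are in the disc -/
theorem aff_unit : ∃ δ : ℝ, 0 < δ ∧ ∀ (x : X) (η : B), η ≠ L.em x → ‖aff L x η‖ ≤ δ →
    η ∈ L.e x '' ball 0 1 := by
  obtain ⟨δ, hδ0, hδ1, hδ⟩ := lin_approx R hab
  refine ⟨δ / 4, by positivity, fun x η hne h => ?_⟩
  obtain ⟨u, hu, hlu⟩ := (hδ x).2.1 _ (mem_closedBall_zero_iff.2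
    (show ‖aff L x η‖ ≤ δ / 2 by linarith))
  have hu3 : u ∈ ball (0 : E2) 3 := closedBall_subset_ball (by linarith) hu
  have h1 := (hδ x).1 u hu 0 (mem_closedBall_self hδ0.le)
  rw [lin_zero R hab, sub_zero, sub_zero, hlu] at h1
  have h2 := norm_sub_norm_le u (aff L x η)
  rw [norm_sub_rev] at h1
  have h3 : ‖u‖ ≤ δ / 2 := by linarith
  have h4 : η = L.e x u := by
    refine aff_inj R hab hne (L.e_ne x u (ball_sub hu3)) ?_
    rw [aff_e R hab x hu3, hlu]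
  rw [h4]
  exact mem_image_of_mem _ (mem_ball_zero_iff.2 (by linarith))

end Vale.Agent.P207.N4.H77
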