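import Vale.Agent.P207.N4.H77.Aff4

/-!
# P207, line N4, row T1: affine charts of the unstable leaves, part 5

The change of frame on one leaf is affine.
-/

open Set Filter Topology Metric MeasureTheory
open scoped ContDiff Nat

set_option linter.unusedSectionVars false

noncomputable section

namespace Vale.Agent.P207.N4.H77

open Vale.Agent.P207.N3 Vale.Agent.P207.N3.H646 Vale.Agent.P207.H77
open Vale.Agent.P207.N4 Vale.Agent.P207.N4.H646

variable [Dim]

/-- the alternating sum of four vectors -/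
def d4 (v : Fin 4 → E2) : E2 := v 0 - v 1 - v 2 + v 3

theorem d4_map (A : E2 →L[ℝ] E2) (v : Fin 4 → E2) : d4 (fun i => A (v i)) = A (d4 v) := by
  simp [d4]

theorem dd_bound {f : E2 → E2} {f' : E2 → E2 →L[ℝ] E2} {A : E2 →L[ℝ] E2} {r K : ℝ}
    (hK : 0 ≤ K) (hd : ∀ u ∈ closedBall (0 : E2) r, HasFDerivAt f (f' u) u)
    (hb : ∀ u ∈ closedBall (0 : E2) r, ‖f' u - A‖ ≤ K) {u : Fin 4 → E2}
    (hu : ∀ i, ‖u i‖ ≤ r) : ‖d4 (fun i => f (u i)) - A (d4 u)‖ ≤ K * (4 * r) := by
  have hd' : ∀ w ∈ closedBall (0 : E2) r, HasFDerivWithinAt (fun w => f w - A w)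
      (f' w - A) (closedBall 0 r) w := fun w hw =>
    ((hd w hw).sub A.hasFDerivAt).hasFDerivWithinAt
  have hq : ∀ i j, ‖(f (u i) - A (u i)) - (f (u j) - A (u j))‖ ≤ K * (2 * r) := by
    intro i j
    have h1 := (convex_closedBall (0 : E2) r).norm_image_sub_le_of_norm_hasFDerivWithin_le hd' hb
      (mem_closedBall_zero_iff.2 (hu j)) (mem_closedBall_zero_iff.2 (hu i))
    refine h1.trans ?_
    have h2 : ‖u i - u j‖ ≤ 2 * r := (norm_sub_le _ _).trans (by linarith [hu i, hu j])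
    gcongr
  have h3 : d4 (fun i => f (u i)) - A (d4 u) =
      ((f (u 0) - A (u 0)) - (f (u 1) - A (u 1))) - ((f (u 2) - A (u 2)) - (f (u 3) - A (u 3))) := by
    simp only [d4, map_add, map_sub]
    abel
  rw [h3]
  refine (norm_sub_le _ _).trans ?_
  have h4 := hq 0 1
  have h5 := hq 2 3
  linarith

variable {Γ X B : Type} [Group Γ] [MetricSpace X] [ProperSpace X] [MulAction Γ X]
  [IsIsometricSMul Γ X] [TopologicalSpace B] [CompactSpace B] [T2Space B] [MulAction Γ B]
  [ContinuousConstSMul Γ B]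

variable {L : Leaf Γ X B}

variable (L) in
/-- the transition maps between close frames -/
theorem tau_near : ∃ δ K : ℝ, 0 < δ ∧ 0 ≤ K ∧ ∀ x y : X, L.em x = L.em y → L.lv x = L.lv y →
    dist x y < δ → ∀ u ∈ ball (0 : E2) 1, u ∈ L.dm x y ∧ ‖fderiv ℝ (L.τ x y) u‖ ≤ K ∧
      ‖fderiv ℝ (L.τ x y) u - fderiv ℝ (L.τ x y) 0‖ ≤ K * ‖u‖ := by
  obtain ⟨δ, hδ, hnc⟩ := L.near_charts (ε := 1) one_pos
  obtain ⟨C1, α1, hα1, h1⟩ := L.holder 1 0
  obtain ⟨C2, α2, hα2, h2⟩ := L.holder 2 0
  have hself : ∀ (x : X), ∀ u ∈ ball (0 : E2) 1, L.τ x x =ᶠ[𝓝 u] id := by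
    intro x u hu
    filter_upwards [isOpen_ball.mem_nhds hu] with w hw
    exact tau_of L (closedBall_subset_closedBall (by norm_num) (ball_subset_closedBall hw)) rfl
  have hin : ∀ x y : X, dist x y < δ → ∀ u ∈ ball (0 : E2) 1,
      u ∈ L.dm x y ∧ L.e x u ∈ L.e y '' closedBall 0 2 := by
    intro x y hxy u hu
    obtain ⟨h3, h4⟩ := hnc x y hxy u
      (closedBall_subset_closedBall (by norm_num) (ball_subset_closedBall hu))
    refine ⟨⟨ball_subset_ball (by norm_num) hu, h3⟩, L.inv y (L.e x u), ?_,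
      L.e_inv (image_mono ball_subset_closedBall h3)⟩
    rw [mem_closedBall_zero_iff]
    rw [dist_eq_norm] at h4
    have h5 := norm_sub_norm_le (L.inv y (L.e x u)) u
    have h6 : ‖u‖ < 1 := mem_ball_zero_iff.1 hu
    linarith
  have hbk : ∀ (k : ℕ) (C α : ℝ), 0 < α → (∀ x y x' y' : X, L.em x = L.em y → L.em x' = L.em y' →
      |L.lv x - L.lv y| ≤ 0 → |L.lv x' - L.lv y'| ≤ 0 → ∀ u ∈ closedBall (0 : E2) 2,
      L.e x u ∈ L.e y '' closedBall 0 2 → L.e x' u ∈ L.e y' '' closedBall 0 2 →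
      ‖iteratedFDeriv ℝ k (tau L.e x y) u - iteratedFDeriv ℝ k (tau L.e x' y') u‖
        ≤ C * (dist x x' + dist y y') ^ α) → ∀ x y : X, L.em x = L.em y → L.lv x = L.lv y →
      dist x y < δ → ∀ u ∈ ball (0 : E2) 1,
      ‖iteratedFDeriv ℝ k (L.τ x y) u - iteratedFDeriv ℝ k (id : E2 → E2) u‖ ≤ |C| * δ ^ α := by
    intro k C α hα h x y he hl hxy u hu
    have hu2 : u ∈ closedBall (0 : E2) 2 :=
      closedBall_subset_closedBall (by norm_num) (ball_subset_closedBall hu)
    have h3 := h x y x x he rfl (by rw [hl]; simp) (by simp) u hu2 (hin x y hxy u hu).2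
      ⟨u, hu2, rfl⟩
    have h4 : iteratedFDeriv ℝ k (tau L.e x x) u = iteratedFDeriv ℝ k (id : E2 → E2) u :=
      (Filter.EventuallyEq.iteratedFDeriv ℝ (hself x u hu) k).eq_of_nhds
    rw [h4, dist_self, zero_add] at h3
    refine h3.trans ?_
    have h5 : dist y x ≤ δ := by rw [dist_comm]; exact hxy.le
    have h6 : dist y x ^ α ≤ δ ^ α := Real.rpow_le_rpow dist_nonneg h5 hα.le
    exact mul_le_mul (le_abs_self C) h6 (Real.rpow_nonneg dist_nonneg _) (abs_nonneg _)
  have hid2 : ∀ u : E2, iteratedFDeriv ℝ 2 (id : E2 → E2) u = 0 := by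
    intro u
    rw [← norm_eq_zero, ← norm_iteratedFDeriv_fderiv]
    have h3 : fderiv ℝ (id : E2 → E2) = fun _ => ContinuousLinearMap.id ℝ E2 := by
      funext z; exact fderiv_id
    rw [h3, iteratedFDeriv_const_of_ne (by norm_num)]
    simp
  have hid1 : ∀ u : E2, ‖iteratedFDeriv ℝ 1 (id : E2 → E2) u‖ ≤ 1 := by
    intro u
    rw [norm_iteratedFDeriv_one, fderiv_id]
    exact ContinuousLinearMap.norm_id_le
  refine ⟨δ, max (|C1| * δ ^ α1 + 1) (|C2| * δ ^ α2), hδ, by positivity, fun x y he hl hxy => ?_⟩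
  have hd : ∀ w ∈ ball (0 : E2) 1, HasFDerivWithinAt (fderiv ℝ (L.τ x y))
      (fderiv ℝ (fderiv ℝ (L.τ x y)) w) (ball 0 1) w := fun w hw =>
    (((tau_smoothAt L he (hin x y hxy w hw).1).fderiv_right (m := ∞) (by simp)).differentiableAt
      (by simp)).hasFDerivAt.hasFDerivWithinAt
  have hb : ∀ w ∈ ball (0 : E2) 1, ‖fderiv ℝ (fderiv ℝ (L.τ x y)) w‖ ≤
      max (|C1| * δ ^ α1 + 1) (|C2| * δ ^ α2) := by
    intro w hw
    have h3 := hbk 2 C2 α2 hα2 h2 x y he hl hxy w hw
    rw [hid2, sub_zero] at h3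
    have h4 : ‖iteratedFDeriv ℝ 2 (L.τ x y) w‖ = ‖fderiv ℝ (fderiv ℝ (L.τ x y)) w‖ := by
      rw [← norm_iteratedFDeriv_fderiv, ← norm_iteratedFDeriv_fderiv, norm_iteratedFDeriv_zero]
    rw [← h4]
    exact h3.trans (le_max_right _ _)
  intro u hu
  refine ⟨(hin x y hxy u hu).1, ?_, ?_⟩
  · have h3 := hbk 1 C1 α1 hα1 h1 x y he hl hxy u hu
    rw [← norm_iteratedFDeriv_one]
    have h4 := norm_sub_norm_le (iteratedFDeriv ℝ 1 (L.τ x y) u)
      (iteratedFDeriv ℝ 1 (id : E2 → E2) u)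
    have h5 := hid1 u
    exact le_trans (by linarith) (le_max_left _ _)
  · have h3 := (convex_ball (0 : E2) 1).norm_image_sub_le_of_norm_hasFDerivWithin_le hd hb
      (mem_ball_self one_pos) hu
    rwa [sub_zero] at h3

theorem disc_rot {x : X} {η : B} (g : O2) {S : ℝ} (h : η ∈ L.e (L.φ (-S) x) '' ball 0 3) :
    η ∈ L.e (L.φ (-S) (L.rot g x)) '' ball 0 3 := by
  obtain ⟨u, hu, rfl⟩ := h
  have hv : g.symm u ∈ ball (0 : E2) 3 := by
    rw [mem_ball_zero_iff, g.symm.norm_map, ← mem_ball_zero_iff]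
    exact hu
  refine ⟨g.symm u, hv, ?_⟩
  rw [← L.rot_φ, L.e_rot g _ _ (ball_sub hv), LinearIsometryEquiv.apply_symm_apply]

attribute [local irreducible] lin Dt

variable {a b : ℝ} (R : LRates L a b) (hab : b < 2 * a)
include R hab

theorem aff_dd {x y : X} (hem : L.em x = L.em y) (hlv : L.lv x = L.lv y) {η : Fin 4 → B}
    (hne : ∀ i, η i ≠ L.em x) (h0 : d4 (fun i => aff L x (η i)) = 0) :
    d4 (fun i => aff L y (η i)) = 0 := by
  obtain ⟨δ, K, hδ, hK, hnear⟩ := tau_near L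
  obtain ⟨c₀, hc₀⟩ := L.past_close (dist x y) hδ
  obtain ⟨Ci, hCi1, hCi⟩ := fwd R
  obtain ⟨C, hC, hs⟩ := inv_small R
  obtain ⟨Cq, hCq0, hq⟩ := lin_quad R hab
  have ha := R.a0
  -- a common disc
  obtain ⟨S, hS⟩ : ∃ S : ℝ, ∀ i, η i ∈ L.e (L.φ (-S) x) '' ball 0 3 ∧
      η i ∈ L.e (L.φ (-S) y) '' ball 0 3 := by
    have h1 : ∀ i, ∀ᶠ T in atTop, η i ∈ L.e (L.φ (-T) x) '' ball 0 3 ∧
        η i ∈ L.e (L.φ (-T) y) '' ball 0 3 := by
      intro i
      obtain ⟨T1, hT1⟩ := exists_disc L (hne i)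
      obtain ⟨T2, hT2⟩ := exists_disc L (hem ▸ hne i : η i ≠ L.em y)
      filter_upwards [eventually_ge_atTop T1, eventually_ge_atTop T2] with T h1 h2
      exact ⟨hT1 T h1, hT2 T h2⟩
    exact (eventually_all.2 h1).exists
  set M : ℝ := Ci * (K * (4 * Cq) + 4 * K + 4 * Cq) * C ^ 2 * Real.exp (2 * a * S) with hM
  have hexp : ∀ c : ℝ, 0 < c → Tendsto (fun T : ℝ => Real.exp (-c * T)) atTop (𝓝 0) := by
    intro c hc
    have h1 : Tendsto (fun t : ℝ => Real.exp (-(c * t))) atTop (𝓝 0) :=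
      Real.tendsto_exp_neg_atTop_nhds_zero.comp (Tendsto.const_mul_atTop hc tendsto_id)
    refine h1.congr fun t => ?_
    rw [neg_mul]
  have hrlim : Tendsto (fun T : ℝ => C * Real.exp (-a * (T - S))) atTop (𝓝 0) := by
    have h1 := (hexp a ha).const_mul (C * Real.exp (a * S))
    rw [mul_zero] at h1
    refine h1.congr fun T => ?_
    rw [mul_assoc, ← Real.exp_add]
    congr 2; ring
  have key : ∀ᶠ T : ℝ in atTop, ‖d4 (fun i => aff L y (η i))‖ ≤
      M * Real.exp (-(2 * a - b) * T) := by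
    filter_upwards [(tendsto_order.1 hrlim).2 1 one_pos, eventually_ge_atTop c₀,
      eventually_ge_atTop (S + L.t1), eventually_ge_atTop L.t1] with T hT1 hT2 hT3 hT4
    obtain ⟨g, hg⟩ := hc₀ x y hem hlv le_rfl T hT2
    set zx := L.φ (-T) x with hzx
    set zy := L.φ (-T) (L.rot g y) with hzy
    set r := C * Real.exp (-a * (T - S)) with hr
    have hr0 : 0 ≤ r := by positivity
    have hxd : ∀ i, η i ∈ L.e zx '' ball 0 3 := fun i => disc3 L (disc_mono L hT3 (hS i).1)
    have hyd : ∀ i, η i ∈ L.e zy '' ball 0 3 := fun i =>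
      disc3 L (disc_mono L hT3 (disc_rot g (hS i).2))
    set u : Fin 4 → E2 := fun i => L.inv zx (η i) with hu
    set v : Fin 4 → E2 := fun i => L.inv zy (η i) with hv
    have hur : ∀ i, ‖u i‖ ≤ r := fun i => hs x (η i) S (hS i).1 T hT3
    have hvr : ∀ i, ‖v i‖ ≤ r := fun i => hs (L.rot g y) (η i) S (disc_rot g (hS i).2) T hT3
    have hball : closedBall (0 : E2) r ⊆ ball 0 1 := closedBall_subset_ball hT1
    have hball3 : closedBall (0 : E2) r ⊆ ball 0 3 := closedBall_subset_ball (by linarith)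
    -- the chart at x
    have h1 : d4 (fun i => lin L zx (u i)) = 0 := by
      have h2 : (fun i => aff L x (η i)) = fun i => Dt L T zx (lin L zx (u i)) := by
        funext i; exact aff_eq R hab (hxd i)
      rw [h2, d4_map] at h0
      have h3 : Dt L T zx (d4 (fun i => lin L zx (u i))) = Dt L T zx 0 := by rw [h0, map_zero]
      exact (De L T zx).injective h3
    have hlin : ∀ (z : X) (w : Fin 4 → E2), (∀ i, ‖w i‖ ≤ r) →
        ‖d4 (fun i => lin L z (w i)) - d4 w‖ ≤ Cq * r * (4 * r) := by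
      intro z w hw
      have := dd_bound (f := lin L z) (f' := fderiv ℝ (lin L z))
        (A := ContinuousLinearMap.id ℝ E2) (K := Cq * r) (by positivity)
        (fun w hw => (((jc_lin R hab).smooth (z, w) ⟨trivial, hball3 hw⟩).differentiableAt
          (by simp)).hasFDerivAt)
        (fun w hw => ((hq z w (hball3 hw)).1).trans (by
          have : ‖w‖ ≤ r := mem_closedBall_zero_iff.1 hw
          gcongr)) hw
      exact this
    have h2 : ‖d4 u‖ ≤ Cq * r * (4 * r) := by
      have := hlin zx u hur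
      rwa [h1, zero_sub, norm_neg] at this
    -- the transition map
    have hemz : L.em zx = L.em zy := by
      rw [hzx, hzy, L.em_φ, L.em_φ, L.em_rot, hem]
    have hlvz : L.lv zx = L.lv zy := by
      rw [hzx, hzy, L.lv_φ, L.lv_φ, L.lv_rot, hlv]
    have hn := hnear zx zy hemz hlvz hg
    have huv : (fun i => L.τ zx zy (u i)) = v := by
      funext i
      show L.inv zy (L.e zx (L.inv zx (η i))) = L.inv zy (η i)
      rw [L.e_inv (image_mono ball_subset_closedBall (hxd i))]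
    have h3 := dd_bound (f := L.τ zx zy) (f' := fderiv ℝ (L.τ zx zy))
      (A := fderiv ℝ (L.τ zx zy) 0) (K := K * r) (by positivity)
      (fun w hw => tau_hasFDerivAt L hemz (hn w (hball hw)).1)
      (fun w hw => ((hn w (hball hw)).2.2).trans (by
          have : ‖w‖ ≤ r := mem_closedBall_zero_iff.1 hw
          gcongr)) hur
    rw [huv] at h3
    have h4 : ‖fderiv ℝ (L.τ zx zy) 0 (d4 u)‖ ≤ K * (Cq * r * (4 * r)) := by
      refine (ContinuousLinearMap.le_opNorm _ _).trans ?_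
      have := (hn 0 (mem_ball_self one_pos)).2.1
      gcongr
    have h5 : ‖d4 v‖ ≤ K * (Cq * r * (4 * r)) + K * r * (4 * r) := by
      have := norm_le_norm_add_norm_sub' (d4 v) (fderiv ℝ (L.τ zx zy) 0 (d4 u))
      linarith
    -- the chart at y
    have h6 : ‖d4 (fun i => lin L zy (v i))‖ ≤
        K * (Cq * r * (4 * r)) + K * r * (4 * r) + Cq * r * (4 * r) := by
      have h7 := hlin zy v hvr
      have := norm_le_norm_add_norm_sub' (d4 (fun i => lin L zy (v i))) (d4 v)
      linarith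
    have h7 : ‖d4 (fun i => aff L y (η i))‖ = ‖d4 (fun i => aff L (L.rot g y) (η i))‖ := by
      have h8 : (fun i => aff L (L.rot g y) (η i)) =
          fun i => (g.symm.toContinuousLinearEquiv : E2 →L[ℝ] E2) (aff L y (η i)) := by
        funext i
        exact aff_rot R hab g (hem ▸ hne i : η i ≠ L.em y)
      rw [h8, d4_map]
      exact (g.symm.norm_map _).symm
    have h8 : (fun i => aff L (L.rot g y) (η i)) = fun i => Dt L T zy (lin L zy (v i)) := by
      funext i; exact aff_eq R hab (hyd i)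
    rw [h7, h8, d4_map]
    refine ((Dt L T zy).le_opNorm _).trans ?_
    refine (mul_le_mul (hCi zy T hT4) h6 (norm_nonneg _) (by positivity)).trans (le_of_eq ?_)
    have h9 : r ^ 2 = C ^ 2 * Real.exp (2 * a * S) * Real.exp (-(2 * a) * T) := by
      rw [hr, mul_pow, ← Real.exp_nat_mul, mul_assoc (C ^ 2), ← Real.exp_add]
      congr 2
      push_cast
      ring
    have h10 : Real.exp (-(2 * a - b) * T) = Real.exp (b * T) * Real.exp (-(2 * a) * T) := by
      rw [← Real.exp_add]; congr 1; ring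
    have h11 : Ci * Real.exp (b * T) * (K * (Cq * r * (4 * r)) + K * r * (4 * r) +
        Cq * r * (4 * r)) = Ci * Real.exp (b * T) * ((K * (4 * Cq) + 4 * K + 4 * Cq) * r ^ 2) := by
      ring
    rw [h11, h9, hM, h10]
    ring
  have hlim : Tendsto (fun T : ℝ => M * Real.exp (-(2 * a - b) * T)) atTop (𝓝 0) := by
    have := (hexp (2 * a - b) (by linarith)).const_mul M
    rwa [mul_zero] at this
  have h12 : ‖d4 (fun i => aff L y (η i))‖ ≤ 0 := ge_of_tendsto hlim key
  exact norm_le_zero_iff.1 h12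

/-- parallelograms go to parallelograms -/
theorem aff_dd' {x y : X} (hem : L.em x = L.em y) {η : Fin 4 → B}
    (hne : ∀ i, η i ≠ L.em x) (h0 : d4 (fun i => aff L x (η i)) = 0) :
    d4 (fun i => aff L y (η i)) = 0 := by
  set s := L.lv x - L.lv y with hs
  have h1 := aff_dd R hab (x := x) (y := L.φ s y) (by rw [L.em_φ, hem])
    (by rw [L.lv_φ, hs]; ring) hne h0
  have h2 : (fun i => aff L (L.φ s y) (η i)) = fun i => Dt L s y (aff L y (η i)) := by
    funext i
    exact aff_φ R hab s (hem ▸ hne i : η i ≠ L.em y)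
  rw [h2, d4_map] at h1
  have h3 : Dt L s y (d4 (fun i => aff L y (η i))) = Dt L s y 0 := by rw [h1, map_zero]
  exact (De L s y).injective h3

theorem inv_of_inj {A : E2 →L[ℝ] E2} (h : ∀ v, A v = 0 → v = 0) : ∃ e : E2 ≃L[ℝ] E2,
    (e : E2 →L[ℝ] E2) = A := by
  have hi : Function.Injective (A : E2 →ₗ[ℝ] E2) := by
    rw [injective_iff_map_eq_zero]
    exact h
  refine ⟨(LinearEquiv.ofInjectiveEndo _ hi).toContinuousLinearEquiv, ?_⟩
  ext v
  rfl

/-- the change of frame is affine -/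
theorem exists_lin {pt : X → E2 → B} (hne : ∀ x q, pt x q ≠ L.em x)
    (hpt : ∀ x q, aff L x (pt x q) = q) (x y : X) (hem : L.em x = L.em y) :
    ∃ A : E2 ≃L[ℝ] E2, ∀ q, aff L y (pt x q) = A (q - aff L x (L.ep y)) := by
  have hne' : ∀ q, pt x q ≠ L.em y := fun q => hem ▸ hne x q
  set H : E2 → E2 := fun q => aff L y (pt x q) with hH
  have hHc : Continuous H := by
    rw [continuous_iff_continuousAt]
    intro q
    have h1 := aff_cont R hab (hne' q)
    have h2 : ContinuousAt (fun q => (y, pt x q)) q :=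
      (Continuous.prodMk continuous_const
        ((pt_cont R hab hne hpt).comp (Continuous.prodMk continuous_const continuous_id))).continuousAt
    exact ContinuousAt.comp (f := fun q => (y, pt x q)) (g := fun p : X × B => aff L p.1 p.2) h1 h2
  have hadd : ∀ p q, H (p + q) - H 0 = (H p - H 0) + (H q - H 0) := by
    intro p q
    have h1 := aff_dd' R hab hem (η := ![pt x (p + q), pt x p, pt x q, pt x 0])
      (by intro i; fin_cases i <;> exact hne x _)
      (by simp [d4, hpt])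
    simp only [d4, Matrix.cons_val_zero, Matrix.cons_val_one, Matrix.cons_val] at h1
    have h2 : H (p + q) - H p - H q + H 0 = 0 := h1
    have h3 : H (p + q) = H p + H q - H 0 := by
      have h4 : H (p + q) - (H p + H q - H 0) = H (p + q) - H p - H q + H 0 := by abel
      exact sub_eq_zero.1 (h4.trans h2)
    rw [h3]; abel
  let A0 : E2 →+ E2 := AddMonoidHom.mk' (fun q => H q - H 0) hadd
  have hA0c : Continuous A0 := hHc.sub continuous_const
  set A : E2 →L[ℝ] E2 := A0.toRealLinearMap hA0c with hA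
  have hAH : ∀ q, A q = H q - H 0 := fun q => rfl
  obtain ⟨e, he⟩ := inv_of_inj R hab (A := A) (fun v hv => by
    rw [hAH, sub_eq_zero] at hv
    have h1 := aff_inj R hab (hne' v) (hne' 0) hv
    have h2 := congrArg (aff L x) h1
    rwa [hpt, hpt] at h2)
  refine ⟨e, fun q => ?_⟩
  have hep : L.ep y ≠ L.em x := hem ▸ (L.em_ne_ep y).symm
  have h1 : pt x (aff L x (L.ep y)) = L.ep y :=
    aff_inj R hab (hne _ _) hep (hpt _ _)
  have h2 : H (aff L x (L.ep y)) = 0 := by
    show aff L y (pt x (aff L x (L.ep y))) = 0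
    rw [h1, aff_ep R hab]
  have h3 : ∀ q, e q = A q := fun q => by rw [← he]; rfl
  rw [map_sub, h3, h3, hAH, hAH, h2]
  show H q = _
  abel

end Vale.Agent.P207.N4.H77
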