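import Vale.Agent.P207.N4.H77.Aff1

/-!
# P207, charts with a clock (row P9)

Rates measured by a clock `σ t x`.  The names of the lemmas are the names of `N4/H77/Aff1.lean`,
with the crude rate `a * c₀`; the lemmas ending in `_al` carry the clock.
-/

open Set Filter Topology Metric MeasureTheory
open scoped ContDiff Nat

set_option linter.unusedSectionVars false

noncomputable section

namespace Vale.Agent.P207.N4.H77V

open Vale.Agent.P207.N3 Vale.Agent.P207.N3.H646 Vale.Agent.P207.H77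
open Vale.Agent.P207.N4 Vale.Agent.P207.N4.H646 Vale.Agent.P207.N4.H77

variable [Dim]

variable {Γ X B : Type} [Group Γ] [MetricSpace X] [ProperSpace X] [MulAction Γ X]
  [IsIsometricSMul Γ X] [TopologicalSpace B] [CompactSpace B] [T2Space B] [MulAction Γ B]
  [ContinuousConstSMul Γ B]

/-- the rates with a clock -/
structure LRatesV (L : Leaf Γ X B) (σ : ℝ → X → ℝ) (a b c₀ c₁ : ℝ) : Prop where
  a0 : 0 < a
  ab : a ≤ b
  hab : b < 2 * a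
  c00 : 0 < c₀
  clo : ∀ x t, 0 ≤ t → c₀ * t ≤ σ t x
  chi : ∀ x t, 0 ≤ t → σ t x ≤ c₁ * t
  add : ∀ x s t, σ (s + t) x = σ t x + σ s (L.φ t x)
  con : ∀ k : ℕ, 1 ≤ k → ∃ C, ∀ x, ∀ t ≥ L.t1, ∀ u ∈ ball (0 : E2) 3,
    ‖iteratedFDeriv ℝ k (tau L.e (L.φ t x) x) u‖ ≤ C * Real.exp (-a * σ t x)
  inv : ∃ C, ∀ x, ∀ t ≥ L.t1, ‖Dt L t x‖ ≤ C * Real.exp (b * σ t x)

/-- the contraction over the last time `t` -/
def al (L : Leaf Γ X B) (σ : ℝ → X → ℝ) (a t : ℝ) (x : X) : ℝ :=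
  Real.exp (-a * σ t (L.φ (-t) x))

/-- the expansion over the last time `t` -/
def be (L : Leaf Γ X B) (σ : ℝ → X → ℝ) (b t : ℝ) (x : X) : ℝ :=
  Real.exp (b * σ t (L.φ (-t) x))

variable {L : Leaf Γ X B} {σ : ℝ → X → ℝ} {a b c₀ c₁ : ℝ} (R : LRatesV L σ a b c₀ c₁)

theorem al_pos (t : ℝ) (x : X) : 0 < al L σ a t x := Real.exp_pos _
theorem be_pos (t : ℝ) (x : X) : 0 < be L σ b t x := Real.exp_pos _

include R

/-- the crude rate -/
theorem ac_pos : 0 < a * c₀ := mul_pos R.a0 R.c00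

theorem gap_pos : 0 < (2 * a - b) * c₀ := mul_pos (by linarith [R.hab]) R.c00

theorem b_pos : 0 < b := R.a0.trans_le R.ab

theorem al_le (x : X) {t : ℝ} (ht : 0 ≤ t) : al L σ a t x ≤ Real.exp (-(a * c₀) * t) := by
  unfold al
  apply Real.exp_le_exp.mpr
  have h1 := R.clo (L.φ (-t) x) t ht
  have h2 := mul_le_mul_of_nonneg_left h1 R.a0.le
  linarith

theorem al_le_one (x : X) {t : ℝ} (ht : 0 ≤ t) : al L σ a t x ≤ 1 := by
  refine (al_le R x ht).trans (Real.exp_le_one_iff.mpr ?_)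
  have := mul_nonneg (ac_pos R).le ht
  linarith

theorem be_al (x : X) {t : ℝ} (ht : 0 ≤ t) :
    be L σ b t x * al L σ a t x * al L σ a t x ≤ Real.exp (-((2 * a - b) * c₀) * t) := by
  unfold al be
  rw [← Real.exp_add, ← Real.exp_add]
  apply Real.exp_le_exp.mpr
  have h1 := R.clo (L.φ (-t) x) t ht
  have h2 := mul_le_mul_of_nonneg_left h1 (by linarith [R.hab] : 0 ≤ 2 * a - b)
  linarith

/-- one more step costs a constant -/
theorem be_succ (x : X) {s t : ℝ} (hs : 0 ≤ s) :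
    be L σ b (t + s) x ≤ Real.exp (b * (c₁ * s)) * be L σ b t x := by
  unfold be
  rw [← Real.exp_add]
  apply Real.exp_le_exp.mpr
  have h1 := R.add (L.φ (-(t + s)) x) t s
  have h2 : L.φ s (L.φ (-(t + s)) x) = L.φ (-t) x := by
    rw [← L.φ_add]; congr 1; ring
  rw [h2] at h1
  rw [h1]
  have h3 := mul_le_mul_of_nonneg_left (R.chi (L.φ (-(t + s)) x) s hs) (b_pos R).le
  linarith

theorem con_al (k : ℕ) (hk : 1 ≤ k) : ∃ C : ℝ, 1 ≤ C ∧ ∀ x, ∀ t ≥ L.t1, ∀ u ∈ ball (0 : E2) 3,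
    ‖iteratedFDeriv ℝ k (pm L t x) u‖ ≤ C * al L σ a t x := by
  obtain ⟨C, hC⟩ := R.con k hk
  refine ⟨max C 1, le_max_right _ _, fun x t ht u hu => ?_⟩
  have h1 := hC (L.φ (-t) x) t ht u hu
  rw [φ_back] at h1
  refine h1.trans ?_
  unfold al
  gcongr
  exact le_max_left _ _

theorem con' (k : ℕ) (hk : 1 ≤ k) : ∃ C : ℝ, 1 ≤ C ∧ ∀ x, ∀ t ≥ L.t1, ∀ u ∈ ball (0 : E2) 3,
    ‖iteratedFDeriv ℝ k (pm L t x) u‖ ≤ C * Real.exp (-(a * c₀) * t) := by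
  obtain ⟨C, hC, h⟩ := con_al R k hk
  exact ⟨C, hC, fun x t ht u hu => (h x t ht u hu).trans
    (mul_le_mul_of_nonneg_left (al_le R x (L.t1_pos.le.trans ht)) (by linarith))⟩

theorem pm_lip_al : ∃ C : ℝ, 1 ≤ C ∧ ∀ x, ∀ t ≥ L.t1, ∀ u ∈ ball (0 : E2) 3,
    ∀ v ∈ ball (0 : E2) 3, ‖pm L t x u - pm L t x v‖ ≤ C * al L σ a t x * ‖u - v‖ := by
  obtain ⟨C, hC, h⟩ := con_al R 1 le_rfl
  refine ⟨C, hC, fun x t ht u hu v hv => ?_⟩
  have hd : ∀ w ∈ ball (0 : E2) 3, HasFDerivWithinAt (pm L t x) (fderiv ℝ (pm L t x) w)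
      (ball 0 3) w := fun w hw =>
    (tau_hasFDerivAt L (em_back L t x) (mem_dm_back L ht x hw)).hasFDerivWithinAt
  have hb : ∀ w ∈ ball (0 : E2) 3, ‖fderiv ℝ (pm L t x) w‖ ≤ C * al L σ a t x := by
    intro w hw
    have := h x t ht w hw
    rwa [norm_iteratedFDeriv_one] at this
  exact (convex_ball (0 : E2) 3).norm_image_sub_le_of_norm_hasFDerivWithin_le hd hb hv hu

theorem pm_lip : ∃ C : ℝ, 1 ≤ C ∧ ∀ x, ∀ t ≥ L.t1, ∀ u ∈ ball (0 : E2) 3,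
    ∀ v ∈ ball (0 : E2) 3,
      ‖pm L t x u - pm L t x v‖ ≤ C * Real.exp (-(a * c₀) * t) * ‖u - v‖ := by
  obtain ⟨C, hC, h⟩ := pm_lip_al R
  refine ⟨C, hC, fun x t ht u hu v hv => (h x t ht u hu v hv).trans ?_⟩
  have h1 := al_le R x (L.t1_pos.le.trans ht)
  gcongr

theorem pm_small_al : ∃ C : ℝ, 1 ≤ C ∧ ∀ x, ∀ t ≥ L.t1, ∀ u ∈ ball (0 : E2) 3,
    ‖pm L t x u‖ ≤ C * al L σ a t x := by
  obtain ⟨C, hC, h⟩ := pm_lip_al R
  refine ⟨C * 3, by nlinarith, fun x t ht u hu => ?_⟩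
  have h1 := h x t ht u hu 0 zero_mem3
  rw [pm_zero, sub_zero, sub_zero] at h1
  refine h1.trans ?_
  have h2 : ‖u‖ ≤ 3 := (mem_ball_zero_iff.mp hu).le
  have h3 := (al_pos (L := L) (σ := σ) (a := a) t x).le
  calc C * al L σ a t x * ‖u‖ ≤ C * al L σ a t x * 3 := by gcongr
    _ = C * 3 * al L σ a t x := by ring

theorem pm_small' : ∃ C : ℝ, 1 ≤ C ∧ ∀ x, ∀ t ≥ L.t1, ∀ u ∈ ball (0 : E2) 3,
    ‖pm L t x u‖ ≤ C * Real.exp (-(a * c₀) * t) := by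
  obtain ⟨C, hC, h⟩ := pm_small_al R
  exact ⟨C, hC, fun x t ht u hu => (h x t ht u hu).trans
    (mul_le_mul_of_nonneg_left (al_le R x (L.t1_pos.le.trans ht)) (by linarith))⟩

theorem Dt_back_al : ∃ C : ℝ, 1 ≤ C ∧ ∀ x, ∀ t ≥ L.t1, ‖Dt L (-t) x‖ ≤ C * al L σ a t x := by
  obtain ⟨C, hC, h⟩ := con_al R 1 le_rfl
  refine ⟨C, hC, fun x t ht => ?_⟩
  have := h x t ht 0 zero_mem3
  rwa [norm_iteratedFDeriv_one, fderiv_pm] at this

theorem Dt_back : ∃ C : ℝ, 1 ≤ C ∧ ∀ x, ∀ t ≥ L.t1,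
    ‖Dt L (-t) x‖ ≤ C * Real.exp (-(a * c₀) * t) := by
  obtain ⟨C, hC, h⟩ := Dt_back_al R
  exact ⟨C, hC, fun x t ht => (h x t ht).trans
    (mul_le_mul_of_nonneg_left (al_le R x (L.t1_pos.le.trans ht)) (by linarith))⟩

/-- the expansion along the orbit which ends at `x` -/
theorem fwd_be : ∃ C : ℝ, 1 ≤ C ∧ ∀ x, ∀ t ≥ L.t1,
    ‖Dt L t (L.φ (-t) x)‖ ≤ C * be L σ b t x := by
  obtain ⟨C, hC⟩ := R.inv
  refine ⟨max C 1, le_max_right _ _, fun x t ht => (hC _ t ht).trans ?_⟩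
  unfold be
  gcongr
  exact le_max_left _ _

/-- the times of the discrete orbit -/
theorem t_mul (n : ℕ) : L.t1 ≤ (n + 1 : ℝ) * L.t1 := by
  have := L.t1_pos
  nlinarith [mul_nonneg (Nat.cast_nonneg (α := ℝ) n) this.le]

end Vale.Agent.P207.N4.H77V
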